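import Vale.Agent.P181.R2.H572.Sl2B

/-!
# P181 (tail theorem for all numbers of rows), the `sl_2` lemma for several coordinates

Variables `c_(j,i)`, `j : ι` the column, `i : Fin n` the coordinate.  A homogeneous polynomial of degree
`T`, of degree at most `D j` in the variables of column `j`, and invariant under the translations of each
coordinate, vanishes if `n ∑ D < (n + 1) T`.
-/

set_option autoImplicit false

namespace Vale.Agent.P181.R2.H572.Blk

open MvPolynomial Finset

variable {ι : Type*} [Fintype ι] [DecidableEq ι] {n : ℕ}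

/-- The part of degree `l` in coordinate `i`. -/
noncomputable def part (i : Fin n) (l : ℕ) (G : MvPolynomial (ι × Fin n) ℂ) :
    MvPolynomial (ι × Fin n) ℂ :=
  ∑ m ∈ G.support with ∑ j, m (j, i) = l, monomial m (coeff m G)

omit [DecidableEq ι] in
lemma coeff_part (i : Fin n) (l : ℕ) (G : MvPolynomial (ι × Fin n) ℂ) (m : ι × Fin n →₀ ℕ) :
    coeff m (part i l G) = if ∑ j, m (j, i) = l then coeff m G else 0 := by
  classical
  unfold part
  rw [MvPolynomial.coeff_sum]
  simp only [coeff_monomial]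
  rw [Finset.sum_ite_eq']
  by_cases h : ∑ j, m (j, i) = l
  · rw [if_pos h]
    by_cases h2 : m ∈ G.support
    · rw [if_pos (Finset.mem_filter.2 ⟨h2, h⟩)]
    · rw [if_neg (fun h3 => h2 (Finset.mem_filter.1 h3).1)]
      exact (notMem_support_iff.1 h2).symm
  · rw [if_neg h]
    have h4 : m ∉ G.support.filter (fun m => ∑ j, m (j, i) = l) := by
      intro h3
      exact h (Finset.mem_filter.1 h3).2
    exact if_neg h4

omit [DecidableEq ι] in
lemma support_part {i : Fin n} {l : ℕ} {G : MvPolynomial (ι × Fin n) ℂ} {m : ι × Fin n →₀ ℕ}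
    (hm : m ∈ (part i l G).support) : m ∈ G.support ∧ ∑ j, m (j, i) = l := by
  rw [mem_support_iff, coeff_part] at hm
  by_cases h : ∑ j, m (j, i) = l
  · rw [if_pos h] at hm
    exact ⟨mem_support_iff.2 hm, h⟩
  · rw [if_neg h] at hm
    exact absurd rfl hm

omit [DecidableEq ι] in
lemma eval_part (i : Fin n) (l : ℕ) (G : MvPolynomial (ι × Fin n) ℂ) (c : ι × Fin n → ℂ) :
    eval c (part i l G) =
      ∑ m ∈ G.support with ∑ j, m (j, i) = l, coeff m G * ∏ p, c p ^ m p := by
  unfold part
  rw [map_sum]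
  refine Finset.sum_congr rfl fun m _ => ?_
  rw [eval_monomial, Finsupp.prod_fintype _ _ (fun _ => pow_zero _)]

/-- The polynomial `u ↦ G (c_i ; u c_other)`. -/
noncomputable def sc (i : Fin n) (G : MvPolynomial (ι × Fin n) ℂ) (c : ι × Fin n → ℂ) :
    Polynomial ℂ :=
  ∑ m ∈ G.support, Polynomial.C (coeff m G * ∏ p, c p ^ m p) *
    Polynomial.X ^ (∑ p with ¬ (p.2 = i), m p)

omit [DecidableEq ι] in
lemma eval_sc (i : Fin n) (G : MvPolynomial (ι × Fin n) ℂ) (c : ι × Fin n → ℂ) (u : ℂ) :
    (sc i G c).eval u = eval (fun p => if p.2 = i then c p else u * c p) G := by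
  unfold sc
  rw [Polynomial.eval_finsetSum, MvPolynomial.eval_eq']
  refine Finset.sum_congr rfl fun m _ => ?_
  rw [Polynomial.eval_mul, Polynomial.eval_C, Polynomial.eval_pow, Polynomial.eval_X]
  have h1 : ∀ p : ι × Fin n, (if p.2 = i then c p else u * c p) ^ m p =
      c p ^ m p * (if ¬ (p.2 = i) then u ^ m p else 1) := by
    intro p
    by_cases h : p.2 = i
    · rw [if_pos h, if_neg (not_not.2 h), mul_one]
    · rw [if_neg h, if_pos h, mul_pow, mul_comm]
  rw [Finset.prod_congr rfl fun p _ => h1 p, Finset.prod_mul_distrib, ← Finset.prod_filter,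
    Finset.prod_pow_eq_pow_sum]
  ring

omit [DecidableEq ι] in
lemma sum_split (i : Fin n) (m : ι × Fin n →₀ ℕ) :
    ∑ p, m p = ∑ j, m (j, i) + ∑ p with ¬ (p.2 = i), m p := by
  classical
  rw [← Finset.sum_filter_add_sum_filter_not Finset.univ (fun p : ι × Fin n => p.2 = i)]
  congr 1
  symm
  refine Finset.sum_bij (fun j _ => (j, i)) ?_ ?_ ?_ ?_
  · intro j _; simp
  · intro j _ j' _ h; exact (Prod.mk.inj h).1
  · rintro ⟨j, i'⟩ h
    rw [Finset.mem_filter] at h
    exact ⟨j, Finset.mem_univ _, by rw [← h.2]⟩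
  · intro j _; rfl

omit [DecidableEq ι] in
lemma coeff_sc {T l : ℕ} (i : Fin n) {G : MvPolynomial (ι × Fin n) ℂ}
    (hh : ∀ m ∈ G.support, ∑ p, m p = T) (hl : l ≤ T) (c : ι × Fin n → ℂ) :
    (sc i G c).coeff (T - l) = eval c (part i l G) := by
  rw [eval_part]
  unfold sc
  rw [Polynomial.finsetSum_coeff]
  simp only [Polynomial.coeff_C_mul_X_pow]
  rw [Finset.sum_filter]
  refine Finset.sum_congr rfl fun m hm => ?_
  have h1 := sum_split i m
  rw [hh m hm] at h1
  by_cases h : ∑ j, m (j, i) = l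
  · rw [if_pos h, if_pos (by omega)]
  · rw [if_neg h, if_neg (by omega)]

omit [DecidableEq ι] in
/-- The parts of an invariant polynomial are invariant. -/
lemma part_inv {T l : ℕ} (i : Fin n) {G : MvPolynomial (ι × Fin n) ℂ}
    (hh : ∀ m ∈ G.support, ∑ p, m p = T) (hl : l ≤ T)
    (htr : ∀ (ε : ℂ) (c : ι × Fin n → ℂ),
      eval (fun p => if p.2 = i then c p + ε else c p) G = eval c G)
    (ε : ℂ) (c : ι × Fin n → ℂ) :
    eval (fun p => if p.2 = i then c p + ε else c p) (part i l G) = eval c (part i l G) := by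
  rw [← coeff_sc i hh hl, ← coeff_sc i hh hl]
  congr 1
  refine Polynomial.funext fun u => ?_
  rw [eval_sc, eval_sc, ← htr ε (fun p => if p.2 = i then c p else u * c p)]
  congr 1
  congr 1
  funext p
  by_cases h : p.2 = i
  · simp only [if_pos h]
  · simp only [if_neg h]

/-- **The `sl_2` lemma for several coordinates.** -/
theorem sl2_multi (D : ι → ℕ) {T : ℕ} (G : MvPolynomial (ι × Fin n) ℂ)
    (hd : ∀ m ∈ G.support, ∀ j, ∑ i, m (j, i) ≤ D j)
    (hh : ∀ m ∈ G.support, ∑ p, m p = T)
    (htr : ∀ (i : Fin n) (ε : ℂ) (c : ι × Fin n → ℂ),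
      eval (fun p => if p.2 = i then c p + ε else c p) G = eval c G)
    (h : n * ∑ j, D j < (n + 1) * T) : G = 0 := by
  by_contra hne
  obtain ⟨m, hm⟩ := Finset.nonempty_iff_ne_empty.2 (fun e => hne (support_eq_empty.1 e))
  have key : ∀ i : Fin n, ∑ j, m (j, i) + T ≤ ∑ j, D j := by
    intro i
    by_contra hlt
    rw [not_le] at hlt
    have hl : ∑ j, m (j, i) ≤ T := by
      rw [← hh m hm, sum_split i m]; omega
    have hz : part i (∑ j, m (j, i)) G = 0 := by
      refine sl2_block (Prod.fst : ι × Fin n → ι) (fun j => (j, i)) (fun _ => rfl) D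
        (t := T) (l := ∑ j, m (j, i)) _ ?_ ?_ ?_ ?_ (by omega)
      · intro m' hm' j
        refine le_trans (le_of_eq ?_) (hd m' (support_part hm').1 j)
        symm
        refine Finset.sum_bij (fun i _ => (j, i)) ?_ ?_ ?_ ?_
        · intro i _; simp
        · intro i _ i' _ h; exact (Prod.mk.inj h).2
        · rintro ⟨j', i'⟩ h
          rw [Finset.mem_filter] at h
          exact ⟨i', Finset.mem_univ _, by rw [← h.2]⟩
        · intro i _; rfl
      · intro m' hm'; exact hh m' (support_part hm').1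
      · intro m' hm'; exact (support_part hm').2
      · intro ε c
        rw [← part_inv i hh hl (htr i) ε c]
        congr 1
        congr 1
        funext p
        by_cases hp : p.2 = i
        · rw [if_pos (by rw [← hp]), if_pos hp]
        · rw [if_neg (fun e => hp (by rw [e])), if_neg hp]
    have h2 := coeff_part i (∑ j, m (j, i)) G m
    rw [hz, if_pos rfl, coeff_zero] at h2
    exact mem_support_iff.1 hm h2.symm
  have h1 : ∑ i : Fin n, (∑ j, m (j, i) + T) ≤ ∑ _i : Fin n, ∑ j, D j :=
    Finset.sum_le_sum fun i _ => key i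
  rw [Finset.sum_add_distrib, Finset.sum_const, Finset.sum_const, Finset.card_univ, Fintype.card_fin,
    smul_eq_mul, smul_eq_mul] at h1
  have h2 : ∑ i : Fin n, ∑ j, m (j, i) = T := by
    rw [← hh m hm, Fintype.sum_prod_type_right]
  rw [h2] at h1
  have : (n + 1) * T = T + n * T := by ring
  omega

end Vale.Agent.P181.R2.H572.Blk
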