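import Vale.Agent.P181.R2.H572.Mix
import Vale.Agent.P181.R2.H280.NDefs

/-!
# P181 (tail theorem for all numbers of rows), rows N1 and N2
-/

set_option autoImplicit false

open MvPolynomial

namespace Vale.Agent.P181.TN

open Vale.Agent.P181 Vale.Agent.P181.H536 Vale.Agent.P181.H280 Vale.Agent.P181.R2.H572

/-- **N1.** -/
theorem block_zero {ι : Type*} [Fintype ι] [DecidableEq ι] {n T : ℕ}
    (G : MvPolynomial (ι × Fin n) ℂ) (D : ι → ℕ)
    (hD : ∀ d ∈ G.support, ∀ j, ∑ i, d (j, i) ≤ D j) (hT : G.IsHomogeneous T)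
    (hinv : ∀ (i : Fin n) (e : ℂ) (c : ι × Fin n → ℂ),
      eval (fun p => c p + if p.2 = i then e else 0) G = eval c G)
    (h : n * ∑ j, D j < (n + 1) * T) : G = 0 := by
  refine Blk.sl2_multi D G hD ?_ ?_ h
  · intro m hm
    have h1 := hT (mem_support_iff.1 hm)
    rw [← h1, Finsupp.weight_apply, Finsupp.sum_fintype]
    · simp
    · intro i; simp
  · intro i ε c
    rw [← hinv i ε c]
    congr 1
    congr 1
    funext p
    split_ifs
    · rfl
    · rw [add_zero]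

/-- **N2.** -/
theorem mixed {n m b r s t : ℕ} (hs : 2 ≤ s) (hr : r ≤ b) (F : Fm n (m + 1)) (hI : Inv b F)
    (hH : Hom b t F) {w : Sn n} (hw : w ∈ ZZ n ^ r)
    (hQ : ∀ B ∈ linS (n + 2) ^ (b - r), QQ (s - 1) b (F.curryLeft (w * B)))
    (h : n * ((s - 1) * b) + r < (n + 1) * t) :
    ∀ B ∈ linS (n + 2) ^ (b - r), IsK (linS (n + 2)) b (F.curryLeft (w * B)) := by
  obtain ⟨s', rfl⟩ : ∃ s', s = s' + 2 := ⟨s - 2, by omega⟩
  have e1 : s' + 2 - 1 = s' + 1 := rfl
  rw [e1] at h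
  have hrt : r ≤ t := by
    by_contra hlt
    rw [not_le] at hlt
    have h1 : n * r ≤ n * ((s' + 1) * b) := by
      apply Nat.mul_le_mul_left
      calc r ≤ b := hr
        _ = 1 * b := (one_mul b).symm
        _ ≤ (s' + 1) * b := Nat.mul_le_mul_right _ (by omega)
    have h2 : (n + 1) * t ≤ (n + 1) * r := Nat.mul_le_mul_left _ hlt.le
    have h3 : (n + 1) * r = n * r + r := by ring
    omega
  have hlt : n * (b * s' + (b - r)) < (n + 1) * (t - r) := by
    obtain ⟨b', rfl⟩ : ∃ b', b = r + b' := ⟨b - r, by omega⟩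
    obtain ⟨t', rfl⟩ : ∃ t', t = r + t' := ⟨t - r, by omega⟩
    rw [Nat.add_sub_cancel_left, Nat.add_sub_cancel_left]
    nlinarith
  refine Mix.mixed_pure F (X 0) (X 1) (fun l : Fin n => X l.succ.succ) (ZZ n) (linS (n + 2))
    (fun l => Submodule.subset_span ⟨l, rfl⟩) ?_ ZZ_le (X_mem_linS _) (X_mem_linS _) ?_
    (fun c => scal n c) (fun c => scal_zero c) (fun c => scal_one c) (fun c z hz => scal_Z hz c)
    (fun v => sh n v) (fun v _ => sh_X0 v) (fun v _ => sh_X1 v) (fun v _ z hz => sh_Z hz)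
    hH hI hr w (pow_le_pow_left' ZZ_le _ hw) (fun v _ => sh_ZZ_pow hw)
    (fun c => scal_ZZ_pow hw c) ?_ hrt hlt
  · intro z hz
    obtain ⟨c, hc⟩ := (Submodule.mem_span_range_iff_exists_fun ℂ).1 hz
    exact ⟨c, hc.symm⟩
  · intro l hl
    rw [linS_eq, Submodule.mem_sup] at hl
    obtain ⟨u, hu, z, hz, rfl⟩ := hl
    obtain ⟨α, β, rfl⟩ := Submodule.mem_span_pair.1 hu
    exact ⟨α, β, z, hz, rfl⟩
  · intro B hB x z hz g hg
    obtain ⟨P, hP, hPe⟩ := hQ B hB x z hz g hg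
    refine ⟨P, ?_, hPe⟩
    by_cases hP0 : P = 0
    · rw [hP0, Polynomial.natDegree_zero]; exact Nat.zero_le _
    · rw [Polynomial.degree_eq_natDegree hP0] at hP
      have : P.natDegree < s' + 2 - 1 := by exact_mod_cast hP
      omega

end Vale.Agent.P181.TN
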