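import Vale.Agent.P181.R2.H572.Sl2M
import Vale.Agent.P181.R2.H240.LemmaI

/-!
# P181 (tail theorem for all numbers of rows), the mixed row

If `F (w B; ·)` satisfies `D_s = 0` for every `B` and a fixed product `w` of `r` elements of `Z`, then
`F (w B; ·)` is in the kernel: the `sl_2` lemma in the columns of the other arguments and in the lines of
`B` together.
-/

set_option autoImplicit false

namespace Vale.Agent.P181.R2.H572.Mix

open MvPolynomial Finset
open Vale.Agent.P181 Vale.Agent.P181.H536 Vale.Agent.P181.H240

section Poly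

variable {σ : Type*} [Fintype σ] [DecidableEq σ]

/-- A degree bound in a set of variables from scaling these variables. -/
lemma deg_le_of_scaling (S : Finset σ) (G : MvPolynomial σ ℂ) (d : ℕ)
    (h : ∀ c : σ → ℂ, ∃ p : Polynomial ℂ, p.natDegree ≤ d ∧
      ∀ u, p.eval u = eval (fun q => if q ∈ S then u * c q else c q) G) :
    ∀ m ∈ G.support, ∑ q ∈ S, m q ≤ d := by
  intro m hm
  by_contra hlt
  rw [not_le] at hlt
  set K := ∑ q ∈ S, m q with hK
  let Gn : MvPolynomial σ ℂ :=
    ∑ f ∈ G.support.filter (fun f => ∑ q ∈ S, f q = K), monomial f (coeff f G)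
  have hGn : Gn = 0 := by
    apply MvPolynomial.funext
    intro c
    rw [map_zero]
    obtain ⟨p, hp, hpe⟩ := h c
    let g : Polynomial ℂ := ∑ f ∈ G.support,
      Polynomial.C (coeff f G * ∏ q, c q ^ f q) * Polynomial.X ^ (∑ q ∈ S, f q)
    have hg : g = p := by
      apply Polynomial.funext
      intro u
      rw [hpe, eval_eq']
      simp only [g, Polynomial.eval_finsetSum, Polynomial.eval_mul, Polynomial.eval_C,
        Polynomial.eval_pow, Polynomial.eval_X]
      apply Finset.sum_congr rfl
      intro f _
      have h1 : ∀ q, (if q ∈ S then u * c q else c q) ^ f q =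
          c q ^ f q * (if q ∈ S then u ^ f q else 1) := by
        intro q
        split_ifs
        · rw [mul_pow, mul_comm]
        · rw [mul_one]
      rw [Finset.prod_congr rfl fun q _ => h1 q, Finset.prod_mul_distrib, Finset.prod_ite_mem,
        Finset.univ_inter, Finset.prod_pow_eq_pow_sum]
      ring
    have hgc : g.coeff K = 0 := by
      rw [hg]
      exact Polynomial.coeff_eq_zero_of_natDegree_lt (lt_of_le_of_lt hp hlt)
    rw [← hgc]
    simp only [g, Gn, Polynomial.finsetSum_coeff, Polynomial.coeff_C_mul_X_pow, map_sum]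
    rw [Finset.sum_filter]
    apply Finset.sum_congr rfl
    intro f _
    by_cases hf : ∑ q ∈ S, f q = K
    · rw [if_pos hf, if_pos hf.symm, eval_monomial, Finsupp.prod_fintype _ _
        (fun i => pow_zero _)]
    · rw [if_neg hf, if_neg (Ne.symm hf)]
  have h2 : coeff m Gn = coeff m G := by
    simp only [Gn, coeff_sum, coeff_monomial]
    rw [Finset.sum_filter, Finset.sum_eq_single m]
    · rw [if_pos rfl, if_pos rfl]
    · intro f _ hf
      rw [if_neg hf, ite_self]
    · intro hm'
      exact absurd hm hm'
  rw [hGn, coeff_zero] at h2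
  exact (mem_support_iff.1 hm) h2.symm

/-- Homogeneity from scaling, in terms of exponents. -/
lemma sum_of_scaling (G : MvPolynomial σ ℂ) (t : ℕ)
    (h : ∀ (c : σ → ℂ) (l : ℂ), l ≠ 0 → eval (fun j => l * c j) G = l ^ t * eval c G) :
    ∀ m ∈ G.support, ∑ q, m q = t := by
  intro m hm
  have h1 := isHomogeneous_of_scaling G t h (mem_support_iff.1 hm)
  rw [← h1, Finsupp.weight_apply, Finsupp.sum_fintype]
  · simp
  · intro i; simp

end Poly

variable {A : Type*} [CommRing A] [Algebra ℂ A]

/-- Products of chart lines span. -/
lemma pow_le_of_chart {p q : A} {Z L : Submodule ℂ A}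
    (hL : ∀ l ∈ L, ∃ α β : ℂ, ∃ z ∈ Z, l = α • p + β • q + z) (d : ℕ) (M : Submodule ℂ A)
    (h : ∀ (y : Fin d → ℂ) (z : Fin d → A), (∀ i, z i ∈ Z) → ∏ i, (lin p q (y i) + z i) ∈ M) :
    L ^ d ≤ M := by
  induction d generalizing M with
  | zero =>
    rw [pow_zero, Submodule.one_le]
    simpa using h Fin.elim0 Fin.elim0 (fun i => i.elim0)
  | succ d ih =>
    rw [pow_succ, Submodule.mul_le]
    intro w hw l hl
    have h1 := ih (M.comap (LinearMap.mulRight ℂ l)) ?_ hw
    · exact h1
    intro y z hz
    rw [Submodule.mem_comap, LinearMap.mulRight_apply]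
    have h2 : ∀ (x : ℂ), ∀ v ∈ Z, (∏ i, (lin p q (y i) + z i)) * (lin p q x + v) ∈ M := by
      intro x v hv
      have := h (Fin.snoc y x) (Fin.snoc z v) (by
        intro i
        refine Fin.lastCases ?_ (fun i => ?_) i
        · rw [Fin.snoc_last]; exact hv
        · rw [Fin.snoc_castSucc]; exact hz i)
      rw [Fin.prod_univ_castSucc] at this
      simpa only [Fin.snoc_castSucc, Fin.snoc_last] using this
    obtain ⟨α, β, v, hv, rfl⟩ := hL l hl
    have e : (∏ i, (lin p q (y i) + z i)) * (α • p + β • q + v) =
        (α - β - 1) • ((∏ i, (lin p q (y i) + z i)) * (lin p q 0 + 0)) +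
          β • ((∏ i, (lin p q (y i) + z i)) * (lin p q 1 + 0)) +
            (∏ i, (lin p q (y i) + z i)) * (lin p q 0 + v) := by
      simp only [lin, Algebra.smul_def, map_sub, map_one, map_zero]
      ring
    rw [e]
    exact M.add_mem (M.add_mem (M.smul_mem _ (h2 0 0 Z.zero_mem))
      (M.smul_mem _ (h2 1 0 Z.zero_mem))) (h2 0 v hv)

/-- Vanishing at all products of chart lines implies `IsK`. -/
theorem isK_of_chart {a b : ℕ} (F : MultilinearMap ℂ (fun _ : Fin a => A) ℂ) (p q : A)
    (Z L : Submodule ℂ A) (hL : ∀ l ∈ L, ∃ α β : ℂ, ∃ z ∈ Z, l = α • p + β • q + z)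
    (h : ∀ (x : Fin b → ℂ) (z : Fin b → A), (∀ j, z j ∈ Z) →
      F (fun _ => ∏ j, (lin p q (x j) + z j)) = 0) : IsK L b F := by
  intro m hm hmL
  obtain ⟨f, hf⟩ := exists_fin_map m b hm
  have hfL : ∀ j, f j ∈ L := by
    intro j
    apply hmL
    rw [hf]
    exact Multiset.mem_map_of_mem f (Finset.mem_univ_val j)
  choose α β z hz hl using fun j => hL (f j) (hfL j)
  have hmp : m.prod = ∏ j, f j := by
    rw [hf]; rfl
  rw [hmp]
  obtain ⟨P, hP⟩ := poly_exists F (fun _ => ∏ j, (Polynomial.C (f j) + Polynomial.X * Polynomial.C p))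
  have hP' : ∀ e : ℂ, P.eval e = F (fun _ => ∏ j, (f j + e • p)) := by
    intro e
    rw [hP]
    congr 1
    funext _
    rw [Polynomial.eval_prod]
    apply Finset.prod_congr rfl
    intro j _
    rw [Polynomial.eval_add, Polynomial.eval_C, Polynomial.eval_mul, Polynomial.eval_X,
      Polynomial.eval_C, Algebra.smul_def]
  have hP0 : P = 0 := by
    apply Polynomial.eq_of_infinite_eval_eq
    apply Set.Infinite.mono (s := ((Set.range (fun j => - α j)))ᶜ)
    · intro e he
      rw [Set.mem_ofPred_eq, Polynomial.eval_zero, hP']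
      have hne : ∀ j, α j + e ≠ 0 := by
        intro j hj
        apply he
        exact ⟨j, by simp only; linear_combination -hj⟩
      have h1 : ∀ j, f j + e • p =
          (α j + e) • (lin p q (β j / (α j + e)) + (α j + e)⁻¹ • z j) := by
        intro j
        rw [smul_add, lin, smul_add, smul_smul, smul_smul, mul_div_cancel₀ _ (hne j),
          mul_inv_cancel₀ (hne j), hl j, add_smul, one_smul]
        abel
      have h2 : (fun _ : Fin a => ∏ j, (f j + e • p)) = fun _ : Fin a => (∏ j, (α j + e)) •
          ∏ j, (lin p q (β j / (α j + e)) + (α j + e)⁻¹ • z j) := by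
        funext _
        rw [Finset.prod_congr rfl (fun j _ => h1 j), Finset.prod_smul]
      rw [h2, MultilinearMap.map_smul_univ, h _ _ (fun j => Z.smul_mem _ (hz j)), smul_zero]
    · exact (Set.finite_range _).infinite_compl
  have h3 := hP' 0
  rw [hP0, Polynomial.eval_zero] at h3
  rw [h3]
  congr 1
  funext _
  apply Finset.prod_congr rfl
  intro j _
  rw [zero_smul, add_zero]

/-- **The mixed row**, in a general algebra. -/
theorem mixed_pure {n a b r d t : ℕ} (F : MultilinearMap ℂ (fun _ : Fin (a + 1) => A) ℂ)
    (p q : A) (zb : Fin n → A) (Z L : Submodule ℂ A) (hzb : ∀ l, zb l ∈ Z)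
    (hZ : ∀ z ∈ Z, ∃ c : Fin n → ℂ, z = ∑ l, c l • zb l) (hZL : Z ≤ L) (hp : p ∈ L) (hq : q ∈ L)
    (hL : ∀ l ∈ L, ∃ α β : ℂ, ∃ z ∈ Z, l = α • p + β • q + z)
    (τ : ℂ → A →ₐ[ℂ] A) (τp : ∀ c, τ c p = p) (τq : ∀ c, τ c q = q)
    (τz : ∀ c, ∀ z ∈ Z, τ c z = c • z)
    (g : A → A →ₐ[ℂ] A) (gp : ∀ v ∈ Z, g v p = p + v) (gq : ∀ v ∈ Z, g v q = q)
    (gz : ∀ v ∈ Z, ∀ z ∈ Z, g v z = z)
    (hom : ∀ c : ℂ, c ≠ 0 → ∀ P : Fin (a + 1) → A, (∀ i, P i ∈ L ^ b) →
      F (fun i => τ c (P i)) = c ^ t * F P)
    (inv : ∀ v ∈ Z, ∀ P : Fin (a + 1) → A, (∀ i, P i ∈ L ^ b) → F (fun i => g v (P i)) = F P)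
    (hr : r ≤ b) (w : A) (hw : w ∈ L ^ r) (hgw : ∀ v ∈ Z, g v w = w)
    (hτw : ∀ c, τ c w = c ^ r • w)
    (hQ : ∀ B ∈ L ^ (b - r), ∀ x : ℂ, ∀ z ∈ Z, ∀ h : Fin a → A, (∀ i, h i ∈ L ^ (b - 1)) →
      ∃ P : Polynomial ℂ, P.natDegree ≤ d ∧
        ∀ c, P.eval c = F.curryLeft (w * B) (fun i => (lin p q x + c • z) * h i))
    (hrt : r ≤ t) (hlt : n * (b * d + (b - r)) < (n + 1) * (t - r)) :
    ∀ B ∈ L ^ (b - r), IsK L b (F.curryLeft (w * B)) := by
  classical
  have key : ∀ (y : Fin (b - r) → ℂ) (v : Fin (b - r) → A), (∀ i, v i ∈ Z) →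
      IsK L b (F.curryLeft (w * ∏ i, (lin p q (y i) + v i))) := by
    intro y v hv
    apply isK_of_chart _ p q Z L hL
    intro x z hz
    choose γ hγ using fun i => hZ (v i) (hv i)
    choose κ hκ using fun j => hZ (z j) (hz j)
    obtain ⟨G, hG, -⟩ := mv_exists (σ := (Fin b ⊕ Fin (b - r)) × Fin n) F
      (Fin.cons (C w * ∏ i, (C (lin p q (y i)) + ∑ l, X (Sum.inr i, l) * C (zb l)))
        (fun _ => ∏ j, (C (lin p q (x j)) + ∑ l, X (Sum.inl j, l) * C (zb l))))
    let W : ((Fin b ⊕ Fin (b - r)) × Fin n → ℂ) → A := fun e =>
      ∏ i, (lin p q (y i) + ∑ l, e (Sum.inr i, l) • zb l)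
    let Q : ((Fin b ⊕ Fin (b - r)) × Fin n → ℂ) → A := fun e =>
      ∏ j, (lin p q (x j) + ∑ l, e (Sum.inl j, l) • zb l)
    have hG' : ∀ e, eval e G = F (Fin.cons (w * W e) (fun _ => Q e)) := by
      intro e
      rw [hG]
      congr 1
      funext i
      refine Fin.cases ?_ (fun i => ?_) i
      · rw [Fin.cons_zero, Fin.cons_zero, map_mul, evA_C, map_prod]
        congr 1
        apply Finset.prod_congr rfl
        intro j _
        rw [map_add, evA_C, map_sum]
        congr 1
        apply Finset.sum_congr rfl
        intro l _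
        rw [map_mul, evA_X, evA_C, Algebra.smul_def]
      · rw [Fin.cons_succ, Fin.cons_succ, map_prod]
        apply Finset.prod_congr rfl
        intro j _
        rw [map_add, evA_C, map_sum]
        congr 1
        apply Finset.sum_congr rfl
        intro l _
        rw [map_mul, evA_X, evA_C, Algebra.smul_def]
    have hs : ∀ c : Fin n → ℂ, ∑ l, c l • zb l ∈ Z := fun c =>
      Z.sum_mem fun l _ => Z.smul_mem _ (hzb l)
    have hline : ∀ (x : ℂ) (c : Fin n → ℂ), lin p q x + ∑ l, c l • zb l ∈ L := by
      intro x c
      exact L.add_mem (L.add_mem hp (L.smul_mem _ hq)) (hZL (hs c))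
    have hW : ∀ e, W e ∈ L ^ (b - r) := by
      intro e
      have h1 := prod_mem_pow_card L (Finset.univ : Finset (Fin (b - r)))
        (fun i => lin p q (y i) + ∑ l, e (Sum.inr i, l) • zb l) (fun i => hline _ _)
      rwa [Finset.card_univ, Fintype.card_fin] at h1
    have hQm : ∀ e, Q e ∈ L ^ b := by
      intro e
      have h1 := prod_mem_pow_card L (Finset.univ : Finset (Fin b))
        (fun j => lin p q (x j) + ∑ l, e (Sum.inl j, l) • zb l) (fun j => hline _ _)
      rwa [Finset.card_univ, Fintype.card_fin] at h1
    have hwW : ∀ e, w * W e ∈ L ^ b := by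
      intro e
      have : L ^ b = L ^ r * L ^ (b - r) := by rw [← pow_add]; congr 1; omega
      rw [this]
      exact Submodule.mul_mem_mul hw (hW e)
    have hPm : ∀ e, ∀ i, (Fin.cons (w * W e) (fun _ => Q e) : Fin (a + 1) → A) i ∈ L ^ b := by
      intro e i
      refine Fin.cases ?_ (fun i => ?_) i
      · rw [Fin.cons_zero]; exact hwW e
      · rw [Fin.cons_succ]; exact hQm e
    have hG0 : G = 0 := by
      apply Blk.sl2_multi (Sum.elim (fun _ => d) (fun _ => 1)) (T := t - r) G
      · -- degrees
        intro m hm j
        have hconv : ∑ l, m (j, l) = ∑ q ∈ Finset.univ.filter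
            (fun q : (Fin b ⊕ Fin (b - r)) × Fin n => q.1 = j), m q := by
          refine Finset.sum_bij (fun l _ => (j, l)) ?_ ?_ ?_ ?_
          · intro l _; simp
          · intro l _ l' _ h; exact (Prod.mk.inj h).2
          · rintro ⟨j', l'⟩ h
            rw [Finset.mem_filter] at h
            exact ⟨l', Finset.mem_univ _, by rw [← h.2]⟩
          · intro l _; rfl
        rw [hconv]
        refine deg_le_of_scaling _ G _ ?_ m hm
        intro c
        rcases j with j | i0
        · -- a column
          rw [Sum.elim_inl]
          obtain ⟨P, hPd, hPe⟩ := hQ (W c) (hW c) (x j) (∑ l, c (Sum.inl j, l) • zb l) (hs _)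
            (fun _ => ∏ j' ∈ Finset.univ.erase j,
              (lin p q (x j') + ∑ l, c (Sum.inl j', l) • zb l)) (by
              intro _
              have h1 := prod_mem_pow_card L (Finset.univ.erase j)
                (fun j' => lin p q (x j') + ∑ l, c (Sum.inl j', l) • zb l) (fun j => hline _ _)
              rwa [Finset.card_erase_of_mem (Finset.mem_univ j), Finset.card_univ,
                Fintype.card_fin] at h1)
          refine ⟨P, hPd, ?_⟩
          intro u
          rw [hPe, hG', MultilinearMap.curryLeft_apply]
          congr 1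
          congr 1
          · have : W (fun q => if q ∈ Finset.univ.filter
                (fun q : (Fin b ⊕ Fin (b - r)) × Fin n => q.1 = Sum.inl j) then u * c q else c q) =
                W c := by
              apply Finset.prod_congr rfl
              intro i _
              simp
            rw [this]
          · funext _
            show _ = ∏ j', _
            rw [← Finset.mul_prod_erase Finset.univ _ (Finset.mem_univ j)]
            congr 1
            · simp [Finset.smul_sum, smul_smul]
            · apply Finset.prod_congr rfl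
              intro j' hj'
              have hne := Finset.ne_of_mem_erase hj'
              simp [hne]
        · -- a line of the first argument
          rw [Sum.elim_inr]
          let R : A := ∏ i ∈ Finset.univ.erase i0, (lin p q (y i) + ∑ l, c (Sum.inr i, l) • zb l)
          refine ⟨Polynomial.C (F (Fin.cons (w * (lin p q (y i0) * R)) (fun _ => Q c))) +
            Polynomial.C (F (Fin.cons (w * ((∑ l, c (Sum.inr i0, l) • zb l) * R))
              (fun _ => Q c))) * Polynomial.X, ?_, ?_⟩
          · refine (Polynomial.natDegree_add_le _ _).trans (max_le ?_ ?_)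
            · rw [Polynomial.natDegree_C]; exact Nat.zero_le _
            · exact (Polynomial.natDegree_C_mul_le _ _).trans Polynomial.natDegree_X_le
          · intro u
            rw [hG']
            have hQc : Q (fun q => if q ∈ Finset.univ.filter
                (fun q : (Fin b ⊕ Fin (b - r)) × Fin n => q.1 = Sum.inr i0) then u * c q
                else c q) = Q c := by
              apply Finset.prod_congr rfl
              intro j _
              simp
            have hWc : W (fun q => if q ∈ Finset.univ.filter
                (fun q : (Fin b ⊕ Fin (b - r)) × Fin n => q.1 = Sum.inr i0) then u * c q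
                else c q) = lin p q (y i0) * R + u • ((∑ l, c (Sum.inr i0, l) • zb l) * R) := by
              show ∏ i, _ = _
              rw [← Finset.mul_prod_erase Finset.univ _ (Finset.mem_univ i0)]
              have h5 : ∏ i ∈ Finset.univ.erase i0, (lin p q (y i) + ∑ l,
                  (if (Sum.inr i, l) ∈ Finset.univ.filter
                    (fun q : (Fin b ⊕ Fin (b - r)) × Fin n => q.1 = Sum.inr i0)
                    then u * c (Sum.inr i, l) else c (Sum.inr i, l)) • zb l) = R := by
                apply Finset.prod_congr rfl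
                intro i hi
                have hne := Finset.ne_of_mem_erase hi
                simp [hne]
              rw [h5, ← smul_mul_assoc, ← add_mul]
              congr 2
              simp [Finset.smul_sum, smul_smul]
            rw [hQc, hWc]
            have h6 : F (Fin.cons (w * (lin p q (y i0) * R +
                u • ((∑ l, c (Sum.inr i0, l) • zb l) * R))) (fun _ => Q c)) =
                F.curryLeft (w * (lin p q (y i0) * R +
                u • ((∑ l, c (Sum.inr i0, l) • zb l) * R))) (fun _ => Q c) := rfl
            rw [h6, mul_add, mul_smul_comm, map_add, map_smul, _root_.add_apply, _root_.smul_apply,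
              MultilinearMap.curryLeft_apply, MultilinearMap.curryLeft_apply, Polynomial.eval_add,
              Polynomial.eval_mul, Polynomial.eval_C, Polynomial.eval_C, Polynomial.eval_X,
              smul_eq_mul, mul_comm u]
      · -- homogeneity
        apply sum_of_scaling
        intro c u hu
        have h1 := hom u hu _ (hPm c)
        have h2 : (fun i => τ u ((Fin.cons (w * W c) (fun _ => Q c) : Fin (a + 1) → A) i)) =
            Fin.cons (u ^ r • (w * W (fun q => u * c q))) (fun _ => Q (fun q => u * c q)) := by
          funext i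
          refine Fin.cases ?_ (fun i => ?_) i
          · rw [Fin.cons_zero, Fin.cons_zero, map_mul, hτw, smul_mul_assoc]
            congr 2
            rw [map_prod]
            apply Finset.prod_congr rfl
            intro i _
            rw [map_add, lin, map_add, map_smul, τp, τq, τz u _ (hs _), Finset.smul_sum]
            congr 1
            apply Finset.sum_congr rfl
            intro l _
            rw [smul_smul]
          · rw [Fin.cons_succ, Fin.cons_succ, map_prod]
            apply Finset.prod_congr rfl
            intro i _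
            rw [map_add, lin, map_add, map_smul, τp, τq, τz u _ (hs _), Finset.smul_sum]
            congr 1
            apply Finset.sum_congr rfl
            intro l _
            rw [smul_smul]
        rw [h2] at h1
        have h3 : F (Fin.cons (u ^ r • (w * W (fun q => u * c q))) (fun _ => Q (fun q => u * c q))) =
            F.curryLeft (u ^ r • (w * W (fun q => u * c q))) (fun _ => Q (fun q => u * c q)) := rfl
        rw [h3, map_smul, _root_.smul_apply, MultilinearMap.curryLeft_apply, smul_eq_mul,
          ← hG' (fun q => u * c q), ← hG' c] at h1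
        have h4 : u ^ t = u ^ r * u ^ (t - r) := by rw [← pow_add]; congr 1; omega
        rw [h4, mul_assoc] at h1
        exact mul_left_cancel₀ (pow_ne_zero _ hu) h1
      · -- invariance
        intro l0 ε c
        have h1 := inv (ε • zb l0) (Z.smul_mem _ (hzb l0)) _ (hPm c)
        rw [hG', hG', ← h1]
        have hsum : ∀ (j : Fin b ⊕ Fin (b - r)),
            ∑ l, (if l = l0 then c (j, l) + ε else c (j, l)) • zb l =
              ε • zb l0 + ∑ l, c (j, l) • zb l := by
          intro j
          have h7 : ∀ l, (if l = l0 then c (j, l) + ε else c (j, l)) • zb l =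
              (if l = l0 then ε • zb l0 else 0) + c (j, l) • zb l := by
            intro l
            by_cases hl : l = l0
            · rw [if_pos hl, if_pos hl, hl, add_smul, add_comm]
            · rw [if_neg hl, if_neg hl, zero_add]
          rw [Finset.sum_congr rfl fun l _ => h7 l, Finset.sum_add_distrib, Finset.sum_ite_eq',
            if_pos (Finset.mem_univ _)]
        congr 1
        funext i
        refine Fin.cases ?_ (fun i => ?_) i
        · rw [Fin.cons_zero, Fin.cons_zero, map_mul, hgw _ (Z.smul_mem _ (hzb l0))]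
          congr 1
          rw [map_prod]
          apply Finset.prod_congr rfl
          intro i _
          rw [map_add, lin, map_add, map_smul, gp _ (Z.smul_mem _ (hzb l0)),
            gq _ (Z.smul_mem _ (hzb l0)), gz _ (Z.smul_mem _ (hzb l0)) _ (hs _), hsum]
          abel
        · rw [Fin.cons_succ, Fin.cons_succ, map_prod]
          apply Finset.prod_congr rfl
          intro i _
          rw [map_add, lin, map_add, map_smul, gp _ (Z.smul_mem _ (hzb l0)),
            gq _ (Z.smul_mem _ (hzb l0)), gz _ (Z.smul_mem _ (hzb l0)) _ (hs _), hsum]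
          abel
      · rw [Fintype.sum_sum_type]
        simp only [Sum.elim_inl, Sum.elim_inr, Finset.sum_const, Finset.card_univ,
          Fintype.card_fin, smul_eq_mul, mul_one]
        exact hlt
    have hfin := hG' (fun q => Sum.elim (fun j => κ j q.2) (fun i => γ i q.2) q.1)
    rw [hG0, map_zero] at hfin
    rw [MultilinearMap.curryLeft_apply]
    rw [hfin]
    congr 1
    funext i
    refine Fin.cases ?_ (fun i => ?_) i
    · rw [Fin.cons_zero, Fin.cons_zero]
      congr 1
      apply Finset.prod_congr rfl
      intro i _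
      rw [hγ i]
      rfl
    · rw [Fin.cons_succ, Fin.cons_succ]
      apply Finset.prod_congr rfl
      intro j _
      rw [hκ j]
      rfl
  intro B hB m hm hmL
  let M : Submodule ℂ A :=
    { carrier := {B | F.curryLeft (w * B) (fun _ => m.prod) = 0}
      add_mem' := by
        intro x y hx hy
        show F.curryLeft (w * (x + y)) _ = 0
        rw [mul_add, map_add, _root_.add_apply]
        have hx' : F.curryLeft (w * x) (fun _ => m.prod) = 0 := hx
        have hy' : F.curryLeft (w * y) (fun _ => m.prod) = 0 := hy
        rw [hx', hy', add_zero]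
      zero_mem' := by
        show F.curryLeft (w * 0) _ = 0
        rw [mul_zero, map_zero]; rfl
      smul_mem' := by
        intro c x hx
        show F.curryLeft (w * (c • x)) _ = 0
        have hx' : F.curryLeft (w * x) (fun _ => m.prod) = 0 := hx
        rw [mul_smul_comm, map_smul, _root_.smul_apply, hx', smul_zero] }
  have hM : L ^ (b - r) ≤ M := pow_le_of_chart hL (b - r) M fun y z hz => key y z hz m hm hmL
  exact hM hB

end Vale.Agent.P181.R2.H572.Mix
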