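import Mathlib

/-!
# P181 (tail theorem for all numbers of rows), the block form of the `sl_2` lemma

Variables `c_i` (`i : σ`) in blocks `β i = j`, one special variable `e j` in each block.  A polynomial of
degree at most `D j` in the `j`-th block, homogeneous of degree `t`, homogeneous of degree `l` in the
special variables and invariant under adding a constant to all special variables vanishes if
`∑ D j < t + l`.
-/

set_option autoImplicit false

namespace Vale.Agent.P181.R2.H572.Blk

open MvPolynomial Finset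

variable {σ ι : Type*} [Fintype σ] [DecidableEq σ] [Fintype ι] [DecidableEq ι]

/-- clearing denominators -/
lemma eval_clear {β : σ → ι} {D : ι → ℕ} {G : MvPolynomial σ ℂ}
    (hd : ∀ m ∈ G.support, ∀ j, ∑ i with β i = j, m i ≤ D j) (n : σ → ℂ) (z : ι → ℂ)
    (hz : ∀ j, z j ≠ 0) :
    (∏ j, z j ^ D j) * eval (fun i => n i / z (β i)) G =
      ∑ m ∈ G.support, coeff m G *
        ((∏ i, n i ^ m i) * ∏ j, z j ^ (D j - ∑ i with β i = j, m i)) := by
  rw [MvPolynomial.eval_eq', Finset.mul_sum]
  refine Finset.sum_congr rfl fun m hm => ?_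
  have h1 : (∏ i, z (β i) ^ m i) = ∏ j, z j ^ (∑ i with β i = j, m i) := by
    rw [← Finset.prod_fiberwise (s := Finset.univ) (g := β) (f := fun i => z (β i) ^ m i)]
    refine Finset.prod_congr rfl fun j _ => ?_
    rw [← Finset.prod_pow_eq_pow_sum]
    refine Finset.prod_congr rfl fun i hi => ?_
    rw [(Finset.mem_filter.1 hi).2]
  have h2 : (∏ j, z j ^ D j) = (∏ j, z j ^ (∑ i with β i = j, m i)) *
      ∏ j, z j ^ (D j - ∑ i with β i = j, m i) := by
    rw [← Finset.prod_mul_distrib]
    refine Finset.prod_congr rfl fun j _ => ?_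
    rw [← pow_add]; congr 1; have := hd m hm j; omega
  have h3 : (∏ j, z j ^ (∑ i with β i = j, m i)) ≠ 0 :=
    Finset.prod_ne_zero_iff.2 fun j _ => pow_ne_zero _ (hz j)
  simp only [div_pow]
  rw [Finset.prod_div_distrib, h1, h2]
  field_simp

/-- the polynomial of the left side -/
noncomputable def FF (β : σ → ι) (D : ι → ℕ) (G : MvPolynomial σ ℂ) (n : σ → ℂ) (c : ι → ℂ) :
    Polynomial ℂ :=
  ∑ m ∈ G.support, Polynomial.C (coeff m G * ∏ i, n i ^ m i) *
    ∏ j, (1 + Polynomial.C (c j) * Polynomial.X) ^ (D j - ∑ i with β i = j, m i)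

lemma eval_FF (β : σ → ι) (D : ι → ℕ) (G : MvPolynomial σ ℂ) (n : σ → ℂ) (c : ι → ℂ) (x : ℂ) :
    (FF β D G n c).eval x =
      ∑ m ∈ G.support, coeff m G *
        ((∏ i, n i ^ m i) * ∏ j, (1 + c j * x) ^ (D j - ∑ i with β i = j, m i)) := by
  unfold FF
  rw [Polynomial.eval_finsetSum]
  refine Finset.sum_congr rfl fun m _ => ?_
  rw [Polynomial.eval_mul, Polynomial.eval_C, Polynomial.eval_prod]
  simp only [Polynomial.eval_pow, Polynomial.eval_add, Polynomial.eval_one, Polynomial.eval_mul,
    Polynomial.eval_C, Polynomial.eval_X]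
  ring

lemma natDegree_FF {β : σ → ι} {D : ι → ℕ} {t : ℕ} {G : MvPolynomial σ ℂ}
    (hd : ∀ m ∈ G.support, ∀ j, ∑ i with β i = j, m i ≤ D j)
    (hh : ∀ m ∈ G.support, ∑ i, m i = t) (n : σ → ℂ) (c : ι → ℂ) :
    (FF β D G n c).natDegree ≤ ∑ j, D j - t := by
  unfold FF
  refine Polynomial.natDegree_sum_le_of_forall_le _ _ fun m hm => ?_
  refine (Polynomial.natDegree_C_mul_le _ _).trans ((Polynomial.natDegree_prod_le _ _).trans ?_)
  have h1 : ∀ j ∈ (univ : Finset ι),
      ((1 + Polynomial.C (c j) * Polynomial.X : Polynomial ℂ) ^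
        (D j - ∑ i with β i = j, m i)).natDegree ≤ D j - ∑ i with β i = j, m i := by
    intro j _
    refine Polynomial.natDegree_pow_le.trans ?_
    have h2 : (1 + Polynomial.C (c j) * Polynomial.X : Polynomial ℂ).natDegree ≤ 1 := by
      refine (Polynomial.natDegree_add_le _ _).trans ?_
      rw [Polynomial.natDegree_one]
      exact max_le (by norm_num) ((Polynomial.natDegree_C_mul_le _ _).trans Polynomial.natDegree_X_le)
    exact (Nat.mul_le_mul_left _ h2).trans (by omega)
  refine (Finset.sum_le_sum h1).trans ?_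
  have h3 : ∑ j, (D j - ∑ i with β i = j, m i) + ∑ i, m i = ∑ j, D j := by
    rw [← Finset.sum_fiberwise (s := Finset.univ) (g := β) (f := fun i => m i),
      ← Finset.sum_add_distrib]
    refine Finset.sum_congr rfl fun j _ => ?_
    have := hd m hm j
    omega
  rw [hh m hm] at h3
  omega

/-- scaling of the special variables -/
lemma eval_scale {β : σ → ι} {e : ι → σ} (he : ∀ j, β (e j) = j) {l : ℕ} {G : MvPolynomial σ ℂ}
    (hl : ∀ m ∈ G.support, ∑ j, m (e j) = l) (s : ℂ) (y : σ → ℂ) :
    eval (fun i => if i = e (β i) then s * y i else y i) G = s ^ l * eval y G := by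
  rw [MvPolynomial.eval_eq', MvPolynomial.eval_eq', Finset.mul_sum]
  refine Finset.sum_congr rfl fun m hm => ?_
  have h1 : ∀ i, (if i = e (β i) then s * y i else y i) ^ m i =
      (if i = e (β i) then s ^ m i else 1) * y i ^ m i := by
    intro i
    split_ifs
    · rw [mul_pow]
    · rw [one_mul]
  have h2 : (∏ i, if i = e (β i) then s ^ m i else 1) = s ^ l := by
    rw [← Finset.prod_filter, ← hl m hm, ← Finset.prod_pow_eq_pow_sum]
    symm
    refine Finset.prod_bij (fun j _ => e j) ?_ ?_ ?_ ?_
    · intro j _; rw [Finset.mem_filter, he]; exact ⟨Finset.mem_univ _, rfl⟩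
    · intro j _ j' _ hjj; rw [← he j, ← he j', hjj]
    · intro i hi; exact ⟨β i, Finset.mem_univ _, ((Finset.mem_filter.1 hi).2).symm⟩
    · intro j _; rfl
  rw [Finset.prod_congr rfl fun i _ => h1 i, Finset.prod_mul_distrib, h2]
  ring

/-- **The block form of the `sl_2` lemma.** -/
theorem sl2_block (β : σ → ι) (e : ι → σ) (he : ∀ j, β (e j) = j) (D : ι → ℕ) {t l : ℕ}
    (G : MvPolynomial σ ℂ)
    (hd : ∀ m ∈ G.support, ∀ j, ∑ i with β i = j, m i ≤ D j)
    (hh : ∀ m ∈ G.support, ∑ i, m i = t)
    (hl : ∀ m ∈ G.support, ∑ j, m (e j) = l)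
    (htr : ∀ (ε : ℂ) (c : σ → ℂ),
      eval (fun i => if i = e (β i) then c i + ε else c i) G = eval c G)
    (h : ∑ j, D j < t + l) : G = 0 := by
  refine MvPolynomial.funext fun c => ?_
  rw [map_zero]
  set n : σ → ℂ := fun i => if i = e (β i) then 1 else c i with hn
  set d : ι → ℂ := fun j => c (e j) with hdd
  have key : Polynomial.X ^ l * FF β D G c d = Polynomial.C ((-1) ^ l) * FF β D G n d := by
    refine Polynomial.eq_of_infinite_eval_eq _ _ ?_
    have hfin : ({0} ∪ Set.range fun j => -(d j)⁻¹ : Set ℂ).Finite :=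
      (Set.finite_singleton _).union (Set.finite_range _)
    refine hfin.infinite_compl.mono fun x hx => ?_
    have hx0 : x ≠ 0 := fun e => hx (Or.inl e)
    have hz : ∀ j, 1 + d j * x ≠ 0 := by
      intro j e
      apply hx
      refine Or.inr ⟨j, ?_⟩
      have hc : d j ≠ 0 := by
        intro hc; rw [hc, zero_mul, add_zero] at e; exact one_ne_zero e
      show -(d j)⁻¹ = x
      field_simp
      linear_combination -e
    show (Polynomial.X ^ l * FF β D G c d).eval x =
      (Polynomial.C ((-1) ^ l) * FF β D G n d).eval x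
    rw [Polynomial.eval_mul, Polynomial.eval_mul, Polynomial.eval_pow, Polynomial.eval_X,
      Polynomial.eval_C, eval_FF, eval_FF, ← eval_clear hd c (fun j => 1 + d j * x) hz,
      ← eval_clear hd n (fun j => 1 + d j * x) hz]
    have e1 : (fun i => c i / (1 + d (β i) * x)) =
        fun i => if i = e (β i) then
          (fun i => if i = e (β i) then (-x⁻¹) * (n i / (1 + d (β i) * x))
            else n i / (1 + d (β i) * x)) i + x⁻¹
          else (fun i => if i = e (β i) then (-x⁻¹) * (n i / (1 + d (β i) * x))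
            else n i / (1 + d (β i) * x)) i := by
      funext i
      have hzi := hz (β i)
      by_cases hi : i = e (β i)
      · have hci : d (β i) = c i := by rw [hdd]; simp only; rw [← hi]
        have hni : n i = 1 := by rw [hn]; simp only; rw [if_pos hi]
        simp only [if_pos hi, hni]
        rw [hci] at hzi ⊢
        field_simp
        ring
      · have hni : n i = c i := by rw [hn]; simp only; rw [if_neg hi]
        simp only [if_neg hi, hni]
    rw [e1, htr x⁻¹, eval_scale he hl]
    have e2 : x ^ l * (-x⁻¹) ^ l = (-1) ^ l := by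
      rw [← mul_pow]; congr 1; field_simp
    linear_combination (∏ j, (1 + d j * x) ^ D j) *
      eval (fun i => n i / (1 + d (β i) * x)) G * e2
  have h0 : FF β D G c d = 0 := by
    by_contra hne
    have h1 : (Polynomial.X ^ l * FF β D G c d).natDegree = l + (FF β D G c d).natDegree := by
      rw [Polynomial.natDegree_mul (pow_ne_zero _ Polynomial.X_ne_zero) hne,
        Polynomial.natDegree_X_pow]
    have h2 : (Polynomial.C ((-1) ^ l) * FF β D G n d).natDegree ≤ ∑ j, D j - t :=
      (Polynomial.natDegree_C_mul_le _ _).trans (natDegree_FF hd hh _ _)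
    rw [← key, h1] at h2
    have h3 : t ≤ ∑ j, D j := by
      have hs : G.support.Nonempty := by
        rw [Finset.nonempty_iff_ne_empty]
        intro hs
        apply hne
        unfold FF
        rw [hs, Finset.sum_empty]
      obtain ⟨m, hm⟩ := hs
      rw [← hh m hm, ← Finset.sum_fiberwise (s := Finset.univ) (g := β) (f := fun i => m i)]
      exact Finset.sum_le_sum fun j _ => hd m hm j
    omega
  have h3 := eval_FF β D G c d 0
  rw [h0, Polynomial.eval_zero] at h3
  rw [MvPolynomial.eval_eq']
  simpa using h3.symm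

end Vale.Agent.P181.R2.H572.Blk
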