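import Vale.Agent.P181.R2.H556.ThreeDefs

/-!
# P181 (ThreeRowTail), rows R4a, R4b, R4c

The top coefficient of a shear invariant form in its first argument is shear invariant and
homogeneous in the other arguments.
-/

set_option autoImplicit false

open MvPolynomial

namespace Vale.Agent.P181.T3R

open Vale.Agent.P181 Vale.Agent.P181.H536 Vale.Agent.P181.H280

namespace H572

/-- The forms `X 2 ^ j * B` of degree `d` with `l ≤ j` and `B` a binary form. -/
def Pc (d l : ℕ) : Set S3 :=
  {w | ∃ (j : ℕ) (B : S3), l ≤ j ∧ j ≤ d ∧ B ∈ U2 ^ (d - j) ∧ w = X 2 ^ j * B}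

lemma mul_U2 {d l : ℕ} {w y : S3} (hw : w ∈ Submodule.span ℂ (Pc d l)) (hy : y ∈ U2) :
    w * y ∈ Submodule.span ℂ (Pc (d + 1) l) := by
  induction hw using Submodule.span_induction with
  | mem x hx =>
    obtain ⟨j, B, hl, hj, hB, rfl⟩ := hx
    refine Submodule.subset_span ⟨j, B * y, hl, by omega, ?_, by ring⟩
    rw [show d + 1 - j = (d - j) + 1 by omega, pow_succ]
    exact Submodule.mul_mem_mul hB hy
  | zero => rw [zero_mul]; exact Submodule.zero_mem _
  | add x x' _ _ h h' => rw [add_mul]; exact Submodule.add_mem _ h h'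
  | smul r x _ h => rw [smul_mul_assoc]; exact Submodule.smul_mem _ _ h

lemma z_mul {d l : ℕ} {w : S3} (hw : w ∈ Submodule.span ℂ (Pc d l)) :
    w * X 2 ∈ Submodule.span ℂ (Pc (d + 1) (l + 1)) := by
  induction hw using Submodule.span_induction with
  | mem x hx =>
    obtain ⟨j, B, hl, hj, hB, rfl⟩ := hx
    refine Submodule.subset_span ⟨j + 1, B, by omega, by omega, ?_, by ring⟩
    rw [show d + 1 - (j + 1) = d - j by omega]
    exact hB
  | zero => rw [zero_mul]; exact Submodule.zero_mem _
  | add x x' _ _ h h' => rw [add_mul]; exact Submodule.add_mem _ h h'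
  | smul r x _ h => rw [smul_mul_assoc]; exact Submodule.smul_mem _ _ h

lemma Pc_mono {d l : ℕ} : Submodule.span ℂ (Pc d (l + 1)) ≤ Submodule.span ℂ (Pc d l) := by
  refine Submodule.span_mono ?_
  rintro _ ⟨j, B, hl, hj, hB, rfl⟩
  exact ⟨j, B, by omega, hj, hB, rfl⟩

lemma pow_Pc {d : ℕ} {A : S3} (hA : A ∈ U2 ^ d) : A ∈ Submodule.span ℂ (Pc d 0) :=
  Submodule.subset_span ⟨0, A, le_rfl, Nat.zero_le _, by simpa using hA, by simp⟩

lemma linS_Pc (d : ℕ) : linS 3 ^ d ≤ Submodule.span ℂ (Pc d 0) := by
  induction d with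
  | zero =>
    intro x hx
    apply pow_Pc
    rw [pow_zero] at hx ⊢
    exact hx
  | succ d ih =>
    rw [pow_succ, Submodule.mul_le]
    intro x hx y hy
    have hx' := ih hx
    rw [linS] at hy
    induction hy using Submodule.span_induction with
    | mem v hv =>
      obtain ⟨i, rfl⟩ := hv
      fin_cases i
      · exact mul_U2 hx' (Submodule.subset_span (by simp))
      · exact mul_U2 hx' (Submodule.subset_span (by simp))
      · exact Pc_mono (z_mul hx')
    | zero => rw [mul_zero]; exact Submodule.zero_mem _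
    | add v v' _ _ h h' => rw [mul_add]; exact Submodule.add_mem _ h h'
    | smul r v _ h => rw [mul_smul_comm]; exact Submodule.smul_mem _ _ h

/-- A shear changes a binary form by multiples of `X 2`. -/
lemma sh_sub {d : ℕ} (ε : ℂ) {A : S3} (hA : A ∈ U2 ^ d) :
    sh ε A - A ∈ Submodule.span ℂ (Pc d 1) := by
  induction d generalizing A with
  | zero =>
    rw [pow_zero, Submodule.mem_one] at hA
    obtain ⟨r, rfl⟩ := hA
    rw [AlgHom.commutes, sub_self]
    exact Submodule.zero_mem _
  | succ d ih =>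
    rw [pow_succ] at hA
    induction hA using Submodule.mul_induction_on' with
    | mem_mul_mem x hx y hy =>
      obtain ⟨α, β, rfl⟩ := Submodule.mem_span_pair.1 hy
      have e : sh ε (α • X 0 + β • X 1) = (α • X 0 + β • X 1 : S3) + (α * ε) • X 2 := by
        rw [map_add, map_smul, map_smul, sh_X0, sh_X1, smul_add, smul_smul]
        ring
      have e2 : sh ε (x * (α • X 0 + β • X 1)) - x * (α • X 0 + β • X 1) =
          (sh ε x - x) * (α • X 0 + β • X 1) + (α * ε) • (x * X 2) +
            (α * ε) • ((sh ε x - x) * X 2) := by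
        rw [map_mul, e]
        simp only [Algebra.smul_def]
        ring
      rw [e2]
      refine Submodule.add_mem _ (Submodule.add_mem _ (mul_U2 (ih hx) hy) ?_) ?_
      · exact Submodule.smul_mem _ _ (z_mul (pow_Pc hx))
      · exact Submodule.smul_mem _ _ (Pc_mono (z_mul (ih hx)))
    | add x _ y _ hx hy =>
      have : sh ε (x + y) - (x + y) = (sh ε x - x) + (sh ε y - y) := by
        rw [map_add]; ring
      rw [this]
      exact Submodule.add_mem _ hx hy

/-- A multilinear form which vanishes on all tuples from a set vanishes on its span. -/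
lemma zero_of_span {a : ℕ} {S : Set S3} (F : Fm a) (h : ∀ v : Fin a → S3, (∀ i, v i ∈ S) → F v = 0)
    (v : Fin a → S3) (hv : ∀ i, v i ∈ Submodule.span ℂ S) : F v = 0 := by
  classical
  suffices H : ∀ (s : Finset (Fin a)) (v : Fin a → S3), (∀ i ∈ s, v i ∈ Submodule.span ℂ S) →
      (∀ i, i ∉ s → v i ∈ S) → F v = 0 from
    H Finset.univ v (fun i _ => hv i) (fun i hi => absurd (Finset.mem_univ i) hi)
  intro s
  induction s using Finset.induction with
  | empty => exact fun v _ h2 => h v fun i => h2 i (Finset.notMem_empty i)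
  | insert i s hi ih =>
    intro v h1 h2
    have key : ∀ x ∈ Submodule.span ℂ S, F (Function.update v i x) = 0 := by
      intro x hx
      induction hx using Submodule.span_induction with
      | mem x hx =>
        apply ih
        · intro j hj
          have hji : j ≠ i := fun e => hi (e ▸ hj)
          rw [Function.update_of_ne hji]
          exact h1 j (Finset.mem_insert_of_mem hj)
        · intro j hj
          by_cases hji : j = i
          · rw [hji, Function.update_self]; exact hx
          · rw [Function.update_of_ne hji]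
            exact h2 j (by simp [hji, hj])
      | zero => exact F.map_coord_zero i (by rw [Function.update_self])
      | add x y _ _ hx hy => rw [F.map_update_add, hx, hy, add_zero]
      | smul r x _ hx => rw [F.map_update_smul, hx, smul_zero]
    have := key (v i) (h1 i (Finset.mem_insert_self _ _))
    rwa [Function.update_eq_self] at this

lemma cons_Dg {b m : ℕ} {w : S3} (hw : w ∈ linS 3 ^ b) {P : Fin m → S3} (hP : Dg b P) :
    Dg b (Fin.cons w P : Fin (m + 1) → S3) := by
  intro i
  refine Fin.cases ?_ (fun i => ?_) i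
  · rw [Fin.cons_zero]; exact hw
  · rw [Fin.cons_succ]; exact hP i

lemma map_cons {m : ℕ} (f : S3 → S3) (w : S3) (P : Fin m → S3) :
    (fun i => f ((Fin.cons w P : Fin (m + 1) → S3) i)) = Fin.cons (f w) (fun i => f (P i)) := by
  funext i
  refine Fin.cases ?_ (fun i => ?_) i
  · rfl
  · rfl

end H572

open H572

/-- **R4a.** -/
theorem curry_inv {m b k : ℕ} (hk : k ≤ b) (F : Fm (m + 1)) (hI : Inv b F) (hT : Top b k F)
    {A : S3} (hA : A ∈ U2 ^ (b - k)) : Inv b (F.curryLeft (X 2 ^ k * A)) := by
  intro ε P hP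
  have hQ : Dg b (fun i => sh ε (P i)) := fun i => sh_mem ε (hP i)
  have h0 : ∀ w ∈ Submodule.span ℂ (Pc (b - k) 1),
      F.curryLeft (X 2 ^ k * w) (fun i => sh ε (P i)) = 0 := by
    intro w hw
    induction hw using Submodule.span_induction with
    | mem x hx =>
      obtain ⟨j, B, hl, hj, hB, rfl⟩ := hx
      have e : X 2 ^ k * (X 2 ^ j * B) = X 2 ^ (k + j) * B := by ring
      rw [e]
      exact hT (k + j) (by omega) (by omega) B
        (by rwa [show b - (k + j) = b - k - j by omega]) _ hQ
    | zero => rw [mul_zero, map_zero]; rfl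
    | add x y _ _ hx hy => rw [mul_add, map_add, MultilinearMap.add_apply, hx, hy, add_zero]
    | smul r x _ hx => rw [mul_smul_comm, map_smul, MultilinearMap.smul_apply, hx, smul_zero]
  have h1 := h0 _ (sh_sub ε hA)
  rw [mul_sub, map_sub, MultilinearMap.sub_apply, sub_eq_zero] at h1
  rw [← h1]
  have h2 := hI ε _ (cons_Dg (zA_mem hk hA) hP)
  rw [H572.map_cons (fun x => sh ε x) (X 2 ^ k * A) P, map_mul, map_pow, sh_X2] at h2
  exact h2

/-- The scaling in the other arguments. -/
lemma curry_scale {m b k t : ℕ} (hk : k ≤ b) (F : Fm (m + 1)) (hH : Hom b t F) {A : S3}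
    (hA : A ∈ U2 ^ (b - k)) (c : ℂ) (hc : c ≠ 0) (P : Fin m → S3) (hP : Dg b P) :
    c ^ k * F.curryLeft (X 2 ^ k * A) (fun i => tau c (P i)) =
      c ^ t * F.curryLeft (X 2 ^ k * A) P := by
  have h2 := hH c hc _ (cons_Dg (zA_mem hk hA) hP)
  rw [H572.map_cons (fun x => tau c x) (X 2 ^ k * A) P, map_mul, map_pow, tau_X2, tau_U2 c hA,
    smul_pow, smul_mul_assoc] at h2
  have h3 : F (Fin.cons (c ^ k • (X 2 ^ k * A)) (fun i => tau c (P i))) =
      F.curryLeft (c ^ k • (X 2 ^ k * A)) (fun i => tau c (P i)) := rfl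
  rw [h3, map_smul, MultilinearMap.smul_apply, smul_eq_mul] at h2
  exact h2

/-- **R4b.** -/
theorem curry_hom {m b k t : ℕ} (hk : k ≤ b) (hkt : k ≤ t) (F : Fm (m + 1)) (hH : Hom b t F)
    {A : S3} (hA : A ∈ U2 ^ (b - k)) : Hom b (t - k) (F.curryLeft (X 2 ^ k * A)) := by
  intro c hc P hP
  have h := curry_scale hk F hH hA c hc P hP
  have e : c ^ t = c ^ k * c ^ (t - k) := by rw [← pow_add]; congr 1; omega
  rw [e, mul_assoc] at h
  exact mul_left_cancel₀ (pow_ne_zero _ hc) h

/-- **R4c.** -/
theorem curry_zero {m b k t : ℕ} (hk : k ≤ b) (hkt : t < k) (F : Fm (m + 1)) (hH : Hom b t F)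
    {A : S3} (hA : A ∈ U2 ^ (b - k)) : Van b (F.curryLeft (X 2 ^ k * A)) := by
  intro P hP
  refine zero_of_span (S := Pc b 0) _ ?_ P fun i => linS_Pc b (hP i)
  intro v hv
  choose j B hl hj hB hw using hv
  have hv' : Dg b v := fun i => by rw [hw i]; exact zA_mem (hj i) (hB i)
  have h := curry_scale hk F hH hA 2 two_ne_zero v hv'
  have e : (fun i => tau 2 (v i)) = fun i => ((2 : ℂ) ^ j i) • v i := by
    funext i
    rw [hw i, map_mul, map_pow, tau_X2, tau_U2 2 (hB i), smul_pow, smul_mul_assoc]
  rw [e, MultilinearMap.map_smul_univ, Finset.prod_pow_eq_pow_sum, smul_eq_mul, ← mul_assoc,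
    ← pow_add] at h
  by_contra hne
  have h2 := mul_right_cancel₀ hne h
  have h3 : (2 : ℂ) ^ (k + ∑ i, j i) = (2 : ℂ) ^ t := h2
  have h4 : (2 : ℕ) ^ (k + ∑ i, j i) = 2 ^ t := by exact_mod_cast h3
  have h5 := Nat.pow_right_injective le_rfl h4
  omega

end Vale.Agent.P181.T3R
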