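import Vale.Agent.P181.R2.H572.PD

set_option autoImplicit false

namespace Vale.Agent.P181.FR.H572

open Polynomial

/-- Coordinates of the points of the moment curve. -/
noncomputable def pr (j k : ℕ) : ℝ := (j : ℝ) ^ k

/-- The `2 i` points, the last one moving. -/
noncomputable def rw' (La i : ℕ) (l : Fin (2 * i - 1 + 1)) (k : ℕ) : ℝ[X] :=
  if l = Fin.last _ then X ^ La * C (pr 0 k) + X ^ (La - 1) * C (pr 1 k) + C (pr (2 * i - 1) k)
  else C (pr l k)

noncomputable def dp (La : ℕ) {i : ℕ} (f : Fin i → Fin (2 * i - 1 + 1)) : ℝ[X] :=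
  Matrix.det (Matrix.of fun j k : Fin i => rw' La i (f j) k)

lemma det_const {i : ℕ} (x : Fin i → ℕ) :
    Matrix.det (Matrix.of fun j k : Fin i => (C (pr (x j) k) : ℝ[X])) =
      C (Matrix.vandermonde fun j : Fin i => (x j : ℝ)).det := by
  rw [← RingHom.coe_coe (C : ℝ →+* ℝ[X]), RingHom.coe_coe, RingHom.map_det]
  congr 1

lemma vdm_ne {i : ℕ} (x : Fin i → ℕ) :
    (Matrix.vandermonde fun j : Fin i => (x j : ℝ)).det ≠ 0 ↔ Function.Injective x := by
  rw [Matrix.det_vandermonde_ne_zero_iff]
  constructor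
  · intro h a b hab
    exact h (by simp only [hab])
  · intro h a b hab
    exact h (Nat.cast_injective hab)

/-- Class A: the moving point is there, `0` is not. -/
def cA {i : ℕ} (f : Fin i → Fin (2 * i - 1 + 1)) : Prop :=
  Fin.last _ ∈ Set.range f ∧ ∀ j, (f j : ℕ) ≠ 0

/-- Class B: the moving point and `0` are there, `1` is not. -/
def cB {i : ℕ} (f : Fin i → Fin (2 * i - 1 + 1)) : Prop :=
  Fin.last _ ∈ Set.range f ∧ (∃ j, (f j : ℕ) = 0) ∧ ∀ j, (f j : ℕ) ≠ 1

open Classical in
noncomputable def wA {i : ℕ} (f : Fin i → Fin (2 * i - 1 + 1)) : ℕ := if cA f then 1 else 0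

open Classical in
noncomputable def wB {i : ℕ} (f : Fin i → Fin (2 * i - 1 + 1)) : ℕ := if cB f then 1 else 0

lemma dp_const (La : ℕ) {i : ℕ} (f : Fin i → Fin (2 * i - 1 + 1)) (hf : Function.Injective f)
    (h : Fin.last _ ∉ Set.range f) : dp La f ≠ 0 ∧ (dp La f).natDegree = 0 := by
  have h1 : dp La f = C (Matrix.vandermonde fun j : Fin i => (((f j : ℕ)) : ℝ)).det := by
    rw [← det_const]
    unfold dp
    congr 1
    refine Matrix.ext fun j k => ?_
    simp only [Matrix.of_apply]
    unfold rw'
    rw [if_neg]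
    intro h'
    exact h ⟨j, h'⟩
  have h2 : (Matrix.vandermonde fun j : Fin i => (((f j : ℕ)) : ℝ)).det ≠ 0 :=
    (vdm_ne _).2 fun a b hab => hf (Fin.ext hab)
  rw [h1]
  exact ⟨fun h3 => h2 (C_eq_zero.1 h3), natDegree_C _⟩

lemma dp_split (La : ℕ) {i : ℕ} (f : Fin i → Fin (2 * i - 1 + 1)) (hf : Function.Injective f)
    (j0 : Fin i) (hj : f j0 = Fin.last _) :
    dp La f = X ^ La * C (Matrix.vandermonde fun j : Fin i =>
        ((Function.update (fun j => (f j : ℕ)) j0 0 j : ℕ) : ℝ)).det +
      X ^ (La - 1) * C (Matrix.vandermonde fun j : Fin i =>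
        ((Function.update (fun j => (f j : ℕ)) j0 1 j : ℕ) : ℝ)).det +
      C (Matrix.vandermonde fun j : Fin i =>
        ((Function.update (fun j => (f j : ℕ)) j0 (2 * i - 1) j : ℕ) : ℝ)).det := by
  have hup : ∀ z : ℕ, Matrix.det (Matrix.updateRow
      (Matrix.of fun j k : Fin i => rw' La i (f j) k) j0 (fun k : Fin i => (C (pr z k) : ℝ[X]))) =
      C (Matrix.vandermonde fun j : Fin i =>
        ((Function.update (fun j => (f j : ℕ)) j0 z j : ℕ) : ℝ)).det := by
    intro z
    rw [← det_const]
    congr 1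
    refine Matrix.ext fun j k => ?_
    by_cases hjj : j = j0
    · subst hjj
      rw [Matrix.updateRow_self]
      simp only [Matrix.of_apply, Function.update_self]
    · rw [Matrix.updateRow_ne hjj]
      simp only [Matrix.of_apply, Function.update_of_ne hjj]
      unfold rw'
      rw [if_neg]
      intro h'
      exact hjj (hf (h'.trans hj.symm))
  have h1 : (Matrix.of fun j k : Fin i => rw' La i (f j) k) =
      Matrix.updateRow (Matrix.of fun j k : Fin i => rw' La i (f j) k) j0
        (((X : ℝ[X]) ^ La) • (fun k : Fin i => (C (pr 0 k) : ℝ[X])) +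
          ((X : ℝ[X]) ^ (La - 1)) • (fun k : Fin i => (C (pr 1 k) : ℝ[X])) +
          (fun k : Fin i => (C (pr (2 * i - 1) k) : ℝ[X]))) := by
    refine Matrix.ext fun j k => ?_
    by_cases hjj : j = j0
    · subst hjj
      rw [Matrix.updateRow_self]
      simp only [Matrix.of_apply, Pi.add_apply, Pi.smul_apply, smul_eq_mul]
      unfold rw'
      rw [if_pos hj]
    · rw [Matrix.updateRow_ne hjj]
  unfold dp
  rw [h1, Matrix.det_updateRow_add, Matrix.det_updateRow_add, Matrix.det_updateRow_smul,
    Matrix.det_updateRow_smul, hup, hup, hup]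

lemma dp_deg (La : ℕ) (hLa : 2 ≤ La) {i : ℕ} (hi : 2 ≤ i) (f : Fin i → Fin (2 * i - 1 + 1))
    (hf : Function.Injective f) :
    dp La f ≠ 0 ∧ (dp La f).natDegree = La * wA f + (La - 1) * wB f := by
  classical
  by_cases h : Fin.last _ ∈ Set.range f
  swap
  · have hA : ¬ cA f := fun h' => h h'.1
    have hB : ¬ cB f := fun h' => h h'.1
    obtain ⟨h1, h2⟩ := dp_const La f hf h
    refine ⟨h1, ?_⟩
    rw [h2]
    unfold wA wB
    rw [if_neg hA, if_neg hB, mul_zero, mul_zero, add_zero]
  obtain ⟨j0, hj⟩ := h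
  have hsp := dp_split La f hf j0 hj
  set a := (Matrix.vandermonde fun j : Fin i =>
        ((Function.update (fun j => (f j : ℕ)) j0 0 j : ℕ) : ℝ)).det with ha
  set b := (Matrix.vandermonde fun j : Fin i =>
        ((Function.update (fun j => (f j : ℕ)) j0 1 j : ℕ) : ℝ)).det with hb
  set c := (Matrix.vandermonde fun j : Fin i =>
        ((Function.update (fun j => (f j : ℕ)) j0 (2 * i - 1) j : ℕ) : ℝ)).det with hc
  have hlast : ((f j0 : ℕ)) = 2 * i - 1 := by rw [hj]; rfl
  have hinj : ∀ z : ℕ, (∀ j, j ≠ j0 → (f j : ℕ) ≠ z) →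
      Function.Injective (Function.update (fun j => (f j : ℕ)) j0 z) := by
    intro z hz u v huv
    by_cases hu : u = j0 <;> by_cases hv : v = j0
    · rw [hu, hv]
    · rw [hu, Function.update_self, Function.update_of_ne hv] at huv
      exact absurd huv.symm (hz v hv)
    · rw [hv, Function.update_self, Function.update_of_ne hu] at huv
      exact absurd huv (hz u hu)
    · rw [Function.update_of_ne hu, Function.update_of_ne hv] at huv
      exact hf (Fin.ext huv)
  have hninj : ∀ z : ℕ, z ≠ 2 * i - 1 → (∃ j, (f j : ℕ) = z) →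
      ¬ Function.Injective (Function.update (fun j => (f j : ℕ)) j0 z) := by
    rintro z hz ⟨j, hjz⟩ hh
    have hne : j ≠ j0 := by
      intro h'
      rw [h', hlast] at hjz
      exact hz hjz.symm
    apply hne
    apply hh
    rw [Function.update_self, Function.update_of_ne hne]
    exact hjz
  have hc0 : c ≠ 0 := by
    rw [hc, vdm_ne]
    refine hinj _ fun j hj' h' => hj' (hf (Fin.ext ?_))
    rw [h', hlast]
  have hmem : Fin.last _ ∈ Set.range f := ⟨j0, hj⟩
  have key : ∀ (p : ℝ[X]) (d : ℕ), p.natDegree ≤ d → p.coeff d ≠ 0 → p ≠ 0 ∧ p.natDegree = d := by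
    intro p d h1 h2
    refine ⟨fun h3 => h2 (by rw [h3, coeff_zero]), le_antisymm h1 (le_natDegree_of_ne_zero h2)⟩
  by_cases h0 : ∃ j, (f j : ℕ) = 0
  · have ha0 : a = 0 := by
      by_contra hh
      rw [← ne_eq, ha, vdm_ne] at hh
      exact hninj 0 (by omega) h0 hh
    have hA : ¬ cA f := fun h' => by
      obtain ⟨j, hj'⟩ := h0
      exact h'.2 j hj'
    by_cases h1 : ∃ j, (f j : ℕ) = 1
    · have hb0 : b = 0 := by
        by_contra hh
        rw [← ne_eq, hb, vdm_ne] at hh
        exact hninj 1 (by omega) h1 hh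
      have hB : ¬ cB f := fun h' => by
        obtain ⟨j, hj'⟩ := h1
        exact h'.2.2 j hj'
      rw [hsp, ha0, hb0]
      simp only [C_0, mul_zero, zero_add]
      refine ⟨fun h3 => hc0 (C_eq_zero.1 h3), ?_⟩
      rw [natDegree_C]
      unfold wA wB
      rw [if_neg hA, if_neg hB, mul_zero, mul_zero, add_zero]
    · push Not at h1
      have hb0 : b ≠ 0 := by
        rw [hb, vdm_ne]
        exact hinj _ fun j _ => h1 j
      have hB : cB f := ⟨hmem, h0, h1⟩
      have hd : La * wA f + (La - 1) * wB f = La - 1 := by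
        unfold wA wB
        rw [if_neg hA, if_pos hB, mul_zero, zero_add, mul_one]
      rw [hd, hsp, ha0]
      simp only [C_0, mul_zero, zero_add]
      apply key
      · refine (natDegree_add_le _ _).trans (max_le ?_ ?_)
        · refine natDegree_mul_le.trans ?_
          rw [natDegree_C, natDegree_X_pow]
          omega
        · rw [natDegree_C]
          omega
      · rw [coeff_add, coeff_C, if_neg (by omega), add_zero, coeff_mul_C, coeff_X_pow, if_pos rfl,
          one_mul]
        exact hb0
  · push Not at h0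
    have ha0 : a ≠ 0 := by
      rw [ha, vdm_ne]
      exact hinj _ fun j _ => h0 j
    have hA : cA f := ⟨hmem, h0⟩
    have hB : ¬ cB f := fun h' => by
      obtain ⟨j, hj'⟩ := h'.2.1
      exact h0 j hj'
    have hd : La * wA f + (La - 1) * wB f = La := by
      unfold wA wB
      rw [if_pos hA, if_neg hB, mul_zero, add_zero, mul_one]
    rw [hd, hsp]
    apply key
    · refine (natDegree_add_le _ _).trans (max_le ((natDegree_add_le _ _).trans (max_le ?_ ?_)) ?_)
      · refine natDegree_mul_le.trans ?_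
        rw [natDegree_C, natDegree_X_pow]
        omega
      · refine natDegree_mul_le.trans ?_
        rw [natDegree_C, natDegree_X_pow]
        omega
      · rw [natDegree_C]
        omega
    · rw [coeff_add, coeff_add, coeff_C, if_neg (by omega), add_zero, coeff_mul_C, coeff_X_pow,
        if_pos rfl, one_mul, coeff_mul_C, coeff_X_pow, if_neg (by omega), zero_mul, add_zero]
      exact ha0

end Vale.Agent.P181.FR.H572
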