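import Vale.Agent.P181.R2.H572.FamG
import Vale.Agent.P181.R2.H572.FamPoly

set_option autoImplicit false
open scoped TensorProduct
namespace Vale.Agent.P181.FR.H572
open Vale.Agent.P181 Vale.Agent.P181.H280

lemma ext3 {α : Type*} [DecidableEq α] {a b c u v w : α} (hab : a ≠ b) (hac : a ≠ c) (hbc : b ≠ c)
    (huv : u ≠ v) (huw : u ≠ w) (hvw : v ≠ w) :
    ∃ τ : Equiv.Perm α, τ a = u ∧ τ b = v ∧ τ c = w := by
  obtain ⟨s1, h1⟩ : ∃ s : Equiv.Perm α, s a = u := ⟨Equiv.swap a u, Equiv.swap_apply_left a u⟩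
  obtain ⟨s2, h2, h3⟩ : ∃ s : Equiv.Perm α, s a = u ∧ s b = v := by
    refine ⟨Equiv.swap (s1 b) v * s1, ?_, ?_⟩
    · rw [Equiv.Perm.mul_apply, h1, Equiv.swap_apply_of_ne_of_ne]
      · rw [← h1]; exact fun h => hab (s1.injective h)
      · exact huv
    · rw [Equiv.Perm.mul_apply, Equiv.swap_apply_left]
  refine ⟨Equiv.swap (s2 c) w * s2, ?_, ?_, ?_⟩
  · rw [Equiv.Perm.mul_apply, h2, Equiv.swap_apply_of_ne_of_ne]
    · rw [← h2]; exact fun h => hac (s2.injective h)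
    · exact huw
  · rw [Equiv.Perm.mul_apply, h3, Equiv.swap_apply_of_ne_of_ne]
    · rw [← h3]; exact fun h => hbc (s2.injective h)
    · exact hvw
  · rw [Equiv.Perm.mul_apply, Equiv.swap_apply_left]

def ee (i : ℕ) (hi : 1 ≤ i) : Fin i ⊕ Fin i ≃ Fin (2 * i - 1 + 1) :=
  finSumFinEquiv.trans (finCongr (by omega))

/-- The square of a product of two complementary minors. -/
noncomputable def YF {i n : ℕ} (hi : 1 ≤ i) (him : i ≤ n + 1)
    (τ : Equiv.Perm (Fin (2 * i - 1 + 1))) (p : Fin (2 * i - 1 + 1) → Fin (n + 1) → ℂ) : ℂ :=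
  (H277.DT him (fun j => p (τ (ee i hi (Sum.inl j)))) *
    H277.DT him (fun j => p (τ (ee i hi (Sum.inr j))))) ^ 2

lemma YF_perm {i n : ℕ} (hi : 1 ≤ i) (him : i ≤ n + 1)
    (τ σ : Equiv.Perm (Fin (2 * i - 1 + 1))) (p : Fin (2 * i - 1 + 1) → Fin (n + 1) → ℂ) :
    YF hi him τ (fun j => p (σ j)) = YF hi him (σ * τ) p := rfl

lemma YF_HWF {i n : ℕ} (hi : 1 ≤ i) (him : i ≤ n + 1)
    (τ : Equiv.Perm (Fin (2 * i - 1 + 1))) :
    HWF (2 * i - 1 + 1) (n + 1) (4 • om (n + 1) i) (YF hi him τ) := by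
  intro g hg p
  have h1 := H277.DT_borel him hg (fun j => p (τ (ee i hi (Sum.inl j))))
  have h2 := H277.DT_borel him hg (fun j => p (τ (ee i hi (Sum.inr j))))
  have h3 : YF hi him τ (fun j => Matrix.vecMul (p j) g) =
      ((∏ k : Fin i, g (Fin.castLE him k) (Fin.castLE him k)) *
        H277.DT him (fun j => p (τ (ee i hi (Sum.inl j)))) *
      ((∏ k : Fin i, g (Fin.castLE him k) (Fin.castLE him k)) *
        H277.DT him (fun j => p (τ (ee i hi (Sum.inr j)))))) ^ 2 := by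
    rw [← h1, ← h2]
    rfl
  rw [h3, H277.prod_om (fun k => g k k) him 4]
  unfold YF
  ring

lemma YF_diag {i n : ℕ} (hi : 1 ≤ i) (hi2 : 2 ≤ i) (him : i ≤ n + 1)
    (p : Fin (2 * i - 1 + 1) → Fin (n + 1) → ℂ) (u v : Fin (2 * i - 1 + 1)) (huv : u ≠ v)
    (hp : p u = p v) : ∃ τ, YF hi him τ p = 0 := by
  have hne : (Sum.inl ⟨0, by omega⟩ : Fin i ⊕ Fin i) ≠ Sum.inl ⟨1, by omega⟩ := by
    intro h
    have := Sum.inl.inj h
    simp at this
  have hne2 : (Sum.inl ⟨0, by omega⟩ : Fin i ⊕ Fin i) ≠ Sum.inr ⟨0, by omega⟩ := by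
    intro h
    cases h
  have hne3 : (Sum.inl ⟨1, by omega⟩ : Fin i ⊕ Fin i) ≠ Sum.inr ⟨0, by omega⟩ := by
    intro h
    cases h
  obtain ⟨w, hw1, hw2⟩ : ∃ w : Fin (2 * i - 1 + 1), u ≠ w ∧ v ≠ w := by
    have hc : ({u, v} : Finset (Fin (2 * i - 1 + 1))).card < Fintype.card (Fin (2 * i - 1 + 1)) := by
      rw [Fintype.card_fin]
      have := Finset.card_le_two (a := u) (b := v)
      omega
    obtain ⟨w, hw⟩ := Finset.exists_mem_notMem_of_card_lt_card
      (s := {u, v}) (t := (Finset.univ : Finset (Fin (2 * i - 1 + 1)))) (by rwa [Finset.card_univ])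
    refine ⟨w, fun h => hw.2 ?_, fun h => hw.2 ?_⟩ <;> simp [h]
  obtain ⟨τ, h1, h2, -⟩ := ext3 ((ee i hi).injective.ne hne) ((ee i hi).injective.ne hne2)
    ((ee i hi).injective.ne hne3) huv hw1 hw2
  refine ⟨τ, ?_⟩
  unfold YF
  have h3 : H277.DT him (fun j => p (τ (ee i hi (Sum.inl j)))) = 0 := by
    unfold H277.DT
    refine Matrix.det_zero_of_row_eq (i := ⟨0, by omega⟩) (j := ⟨1, by omega⟩) ?_ ?_
    · intro h
      simp at h
    · funext k
      simp only [Matrix.of_apply]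
      rw [h1, h2, hp]
  rw [h3, zero_mul, zero_pow (by norm_num)]

lemma YF_MP {i n : ℕ} (hi : 1 ≤ i) (him : i ≤ n + 1)
    (τ : Equiv.Perm (Fin (2 * i - 1 + 1))) :
    YF hi him τ ∈ MP (2 * i - 1 + 1) (n + 1) 2 := by
  have hD : (fun p : Fin (2 * i - 1 + 1) → Fin (n + 1) → ℂ =>
      H277.DT him (fun j => p (τ (ee i hi (Sum.inl j)))) *
      H277.DT him (fun j => p (τ (ee i hi (Sum.inr j))))) ∈ MP (2 * i - 1 + 1) (n + 1) 1 := by
    have h : (fun p : Fin (2 * i - 1 + 1) → Fin (n + 1) → ℂ =>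
      H277.DT him (fun j => p (τ (ee i hi (Sum.inl j)))) *
      H277.DT him (fun j => p (τ (ee i hi (Sum.inr j))))) =
      ∑ π : Equiv.Perm (Fin i), ∑ ρ : Equiv.Perm (Fin i),
        (((Equiv.Perm.sign π : ℤ) : ℂ) * ((Equiv.Perm.sign ρ : ℤ) : ℂ)) •
        (fun p : Fin (2 * i - 1 + 1) → Fin (n + 1) → ℂ => ∏ l, p l
          (Sum.elim (fun j => Fin.castLE him (π j)) (fun j => Fin.castLE him (ρ j))
            ((ee i hi).symm (τ.symm l)))) := by
      funext p
      rw [Finset.sum_apply]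
      unfold H277.DT
      rw [← Matrix.det_transpose, Matrix.det_apply', ← Matrix.det_transpose, Matrix.det_apply',
        Finset.sum_mul_sum]
      refine Finset.sum_congr rfl fun π _ => ?_
      rw [Finset.sum_apply]
      refine Finset.sum_congr rfl fun ρ _ => ?_
      simp only [Matrix.transpose_apply, Matrix.of_apply, Pi.smul_apply, smul_eq_mul]
      rw [← Equiv.prod_comp ((ee i hi).trans τ), Fintype.prod_sum_type]
      simp only [Equiv.trans_apply, Equiv.symm_apply_apply, Sum.elim_inl, Sum.elim_inr]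
      ring
    rw [h]
    exact Submodule.sum_mem _ fun π _ => Submodule.sum_mem _ fun ρ _ =>
      Submodule.smul_mem _ _ (MP_coord _)
  have h2 := H277.MP_pow hD 2
  exact h2

/-! The curve. -/

noncomputable def PP (i m : ℕ) (j : Fin (2 * i - 1)) (k : Fin m) : ℂ := ((j : ℕ) : ℂ) ^ (k : ℕ)

noncomputable def qc (La i m : ℕ) (t : ℂ) (k : Fin m) : ℂ :=
  t ^ La * (0 : ℂ) ^ (k : ℕ) + t ^ (La - 1) * (1 : ℂ) ^ (k : ℕ) + ((2 * i - 1 : ℕ) : ℂ) ^ (k : ℕ)

lemma snoc_eval (La i m : ℕ) (t : ℂ) (l : Fin (2 * i - 1 + 1)) (k : Fin m) :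
    (Fin.snoc (α := fun _ => Fin m → ℂ) (PP i m) (qc La i m t) l) k =
      Polynomial.eval₂ (algebraMap ℝ ℂ) t (rw' La i l k) := by
  refine Fin.lastCases ?_ ?_ l
  · rw [Fin.snoc_last]
    unfold rw' qc pr
    rw [if_pos rfl]
    simp only [Polynomial.eval₂_add, Polynomial.eval₂_mul, Polynomial.eval₂_pow,
      Polynomial.eval₂_X, Polynomial.eval₂_C]
    simp
  · intro j
    rw [Fin.snoc_castSucc]
    unfold rw' PP pr
    rw [if_neg (Fin.castSucc_ne_last j)]
    simp only [Polynomial.eval₂_C]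
    simp

noncomputable def yp {i : ℕ} (hi : 1 ≤ i) (La : ℕ) (τ : Equiv.Perm (Fin (2 * i - 1 + 1))) :
    Polynomial ℝ :=
  (dp La (fun j => τ (ee i hi (Sum.inl j))) * dp La (fun j => τ (ee i hi (Sum.inr j)))) ^ 2

lemma dp_eval {i n : ℕ} (him : i ≤ n + 1) (La : ℕ) (f : Fin i → Fin (2 * i - 1 + 1)) (t : ℂ) :
    H277.DT him (fun j => Fin.snoc (α := fun _ => Fin (n + 1) → ℂ) (PP i (n + 1))
      (qc La i (n + 1) t) (f j)) = Polynomial.eval₂RingHom (algebraMap ℝ ℂ) t (dp La f) := by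
  unfold dp H277.DT
  rw [RingHom.map_det]
  congr 1
  refine Matrix.ext fun j k => ?_
  simp only [Matrix.of_apply, RingHom.mapMatrix_apply, Matrix.map_apply,
    Polynomial.coe_eval₂RingHom]
  exact snoc_eval La i (n + 1) t (f j) (Fin.castLE him k)

lemma yp_eval {i n : ℕ} (hi : 1 ≤ i) (him : i ≤ n + 1) (La : ℕ)
    (τ : Equiv.Perm (Fin (2 * i - 1 + 1))) (t : ℂ) :
    YF hi him τ (Fin.snoc (α := fun _ => Fin (n + 1) → ℂ) (PP i (n + 1))
      (qc La i (n + 1) t)) = Polynomial.eval₂RingHom (algebraMap ℝ ℂ) t (yp hi La τ) := by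
  unfold YF yp
  rw [map_pow, map_mul, ← dp_eval him, ← dp_eval him]

/-- The two counts. -/
noncomputable def aA {i : ℕ} (hi : 1 ≤ i) (τ : Equiv.Perm (Fin (2 * i - 1 + 1))) : ℕ :=
  wA (fun j => τ (ee i hi (Sum.inl j))) + wA (fun j => τ (ee i hi (Sum.inr j)))

noncomputable def bB {i : ℕ} (hi : 1 ≤ i) (τ : Equiv.Perm (Fin (2 * i - 1 + 1))) : ℕ :=
  wB (fun j => τ (ee i hi (Sum.inl j))) + wB (fun j => τ (ee i hi (Sum.inr j)))

lemma inj_l {i : ℕ} (hi : 1 ≤ i) (τ : Equiv.Perm (Fin (2 * i - 1 + 1))) :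
    Function.Injective fun j : Fin i => τ (ee i hi (Sum.inl j)) :=
  fun _ _ h => Sum.inl_injective ((ee i hi).injective (τ.injective h))

lemma inj_r {i : ℕ} (hi : 1 ≤ i) (τ : Equiv.Perm (Fin (2 * i - 1 + 1))) :
    Function.Injective fun j : Fin i => τ (ee i hi (Sum.inr j)) :=
  fun _ _ h => Sum.inr_injective ((ee i hi).injective (τ.injective h))

lemma yp_PD {i : ℕ} (hi : 2 ≤ i) (La : ℕ) (hLa : 2 ≤ La) (τ : Equiv.Perm (Fin (2 * i - 1 + 1))) :
    PD (yp (by omega : 1 ≤ i) La τ) (2 * (La * aA (by omega : 1 ≤ i) τ +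
      (La - 1) * bB (by omega : 1 ≤ i) τ)) := by
  obtain ⟨h1, h2⟩ := dp_deg La hLa hi _ (inj_l (by omega : 1 ≤ i) τ)
  obtain ⟨h3, h4⟩ := dp_deg La hLa hi _ (inj_r (by omega : 1 ≤ i) τ)
  unfold yp
  refine PD.sq_of (mul_ne_zero h1 h3) ?_
  rw [Polynomial.natDegree_mul h1 h3, h2, h4]
  unfold aA bB
  ring

lemma w_le {i : ℕ} (f : Fin i → Fin (2 * i - 1 + 1)) : wA f + wB f ≤ 1 := by
  unfold wA wB
  by_cases hA : cA f
  · have hB : ¬ cB f := fun h => by
      obtain ⟨j, hj⟩ := h.2.1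
      exact hA.2 j hj
    rw [if_pos hA, if_neg hB]
  · rw [if_neg hA]
    split_ifs <;> omega

lemma w_zero {i : ℕ} (f : Fin i → Fin (2 * i - 1 + 1)) (h : Fin.last _ ∉ Set.range f) :
    wA f = 0 ∧ wB f = 0 := by
  unfold wA wB
  exact ⟨if_neg fun h' => h h'.1, if_neg fun h' => h h'.1⟩

lemma ab_le {i : ℕ} (hi : 1 ≤ i) (τ : Equiv.Perm (Fin (2 * i - 1 + 1))) : aA hi τ + bB hi τ ≤ 1 := by
  unfold aA bB
  by_cases h : Fin.last _ ∈ Set.range fun j : Fin i => τ (ee i hi (Sum.inl j))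
  · have h' : Fin.last _ ∉ Set.range fun j : Fin i => τ (ee i hi (Sum.inr j)) := by
      rintro ⟨j', hj'⟩
      obtain ⟨j, hj⟩ := h
      have := (ee i hi).injective (τ.injective (hj.trans hj'.symm))
      cases this
    have h1 := w_zero _ h'
    have h2 := w_le fun j : Fin i => τ (ee i hi (Sum.inl j))
    omega
  · have h1 := w_zero _ h
    have h2 := w_le fun j : Fin i => τ (ee i hi (Sum.inr j))
    omega

lemma arith {La W n2 u v h : ℤ} (hn2 : 1 ≤ n2) (hLa : 2 * n2 * h < La) (hu : |u| < h)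
    (hv : |v| < h) (heq : La * ((u + v) * W + u) = n2 * (u + v)) : u = 0 ∧ v = 0 := by
  have hh : 0 < h := lt_of_le_of_lt (abs_nonneg u) hu
  have hLa0 : 0 < La := by
    have : 0 ≤ 2 * n2 * h := by positivity
    omega
  have huv : |u + v| < 2 * h := by
    have := abs_add_le u v
    omega
  have hR : |n2 * (u + v)| < La := by
    rw [abs_mul, abs_of_nonneg (by omega : 0 ≤ n2)]
    have : n2 * |u + v| ≤ n2 * (2 * h) := mul_le_mul_of_nonneg_left huv.le (by omega)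
    nlinarith
  have hz : (u + v) * W + u = 0 := by
    by_contra hne
    have h1 : 1 ≤ |(u + v) * W + u| := Int.one_le_abs hne
    have h2 : La ≤ |La * ((u + v) * W + u)| := by
      rw [abs_mul, abs_of_pos hLa0]
      nlinarith
    rw [heq] at h2
    omega
  rw [hz, mul_zero] at heq
  have h3 : u + v = 0 := by
    rcases mul_eq_zero.1 heq.symm with h | h
    · omega
    · exact h
  rw [h3, zero_mul, zero_add] at hz
  omega

/-- ROW W7. -/
theorem family {m i : ℕ} (hi : 3 ≤ i) (him : i ≤ m) : ∃ (N : ℕ) (P : Fin (2 * i - 1) → Fin m → ℂ),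
    ∀ c h : ℕ, N * (h + 1) ≤ c →
    ∃ G : Fin h → Fin h → ((Fin (2 * i - 1 + 1) → Fin m → ℂ) → ℂ),
      (∀ r k, G r k ∈ MP (2 * i - 1 + 1) m (2 * c)) ∧
      (∀ r k (σ : Equiv.Perm (Fin (2 * i - 1 + 1))) p, G r k (fun j => p (σ j)) = G r k p) ∧
      (∀ r k, HWF (2 * i - 1 + 1) m ((4 * c) • om m i) (G r k)) ∧
      (∀ r k p (u v : Fin (2 * i - 1 + 1)), u ≠ v → p u = p v → G r k p = 0) ∧
      LinearIndependent ℂ (fun rk : Fin h × Fin h => fun q : Fin m → ℂ =>
        G rk.1 rk.2 (Fin.snoc (α := fun _ => Fin m → ℂ) P q)) := by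
  obtain ⟨n, rfl⟩ : ∃ n, m = n + 1 := ⟨m - 1, by omega⟩
  have hi1 : 1 ≤ i := by omega
  set N0 := Fintype.card (Equiv.Perm (Fin (2 * i - 1 + 1))) with hN0
  have hN0pos : 0 < N0 := Fintype.card_pos
  refine ⟨2 * N0, PP i (n + 1), fun c h hc => ?_⟩
  have hsmall : ∀ r k : Fin h, (r : ℕ) * (N0 - 1) + (1 + (k : ℕ)) * N0 ≤ c := by
    intro r k
    have h1 : (r : ℕ) * (N0 - 1) ≤ h * N0 := Nat.mul_le_mul r.2.le (Nat.sub_le _ _)
    have h2 : (1 + (k : ℕ)) * N0 ≤ h * N0 := Nat.mul_le_mul_right _ (by have := k.2; omega)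
    have h3 : 2 * N0 * (h + 1) = h * N0 + h * N0 + 2 * N0 := by ring
    omega
  let al : Fin h → Fin h → ℕ := fun r k => c - ((r : ℕ) * (N0 - 1) + (1 + (k : ℕ)) * N0)
  have hal : ∀ r k : Fin h, al r k + (r : ℕ) * (N0 - 1) + (1 + (k : ℕ)) * N0 = c := by
    intro r k
    have := hsmall r k
    simp only [al]
    omega
  refine ⟨fun r k => Gf (YF hi1 him) (al r k) r k, ?_, ?_, ?_, ?_, ?_⟩
  · intro r k
    have h1 := Gf_MP (YF hi1 him) (YF_MP hi1 him) (al r k) r k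
    have h2 : al r k * 2 + (r : ℕ) * ((N0 - 1) * 2) + (1 + (k : ℕ)) * (N0 * 2) = 2 * c := by
      rw [← hal r k]
      ring
    rw [← hN0, h2] at h1
    exact h1
  · intro r k σ p
    have h1 := map_Gf (Pi.evalRingHom (fun _ => ℂ) (fun j => p (σ j))) (YF hi1 him) (al r k) r k
    have h2 := map_Gf (Pi.evalRingHom (fun _ => ℂ) p) (YF hi1 him) (al r k) r k
    simp only [Pi.evalRingHom_apply] at h1 h2
    beta_reduce
    rw [h1, h2, ← Gf_equiv (fun τ => YF hi1 him τ p) (Equiv.mulLeft σ)]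
    rfl
  · intro r k
    have h1 := Gf_HWF (YF hi1 him) (YF_HWF hi1 him) (al r k) r k
    rw [← hN0, hal, smul_smul] at h1
    rwa [mul_comm 4 c]
  · intro r k p u v huv hp
    obtain ⟨τ, hτ⟩ := YF_diag hi1 (by omega) him p u v huv hp
    have h2 := map_Gf (Pi.evalRingHom (fun _ => ℂ) p) (YF hi1 him) (al r k) r k
    simp only [Pi.evalRingHom_apply] at h2
    beta_reduce
    rw [h2]
    exact Gf_zero _ _ _ _ τ hτ
  · -- independence
    let n1 : ℕ := ∑ τ, aA hi1 τ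
    let n2 : ℕ := ∑ τ, bB hi1 τ
    let La : ℕ := 2 * n2 * h + 2
    have hLa : 2 ≤ La := by simp only [La]; omega
    let δ : Equiv.Perm (Fin (2 * i - 1 + 1)) → ℕ :=
      fun τ => 2 * (La * aA hi1 τ + (La - 1) * bB hi1 τ)
    have hz : ∀ a b : ℕ, a ≠ b → a < i → b < i → ∀ (ha : a < i) (hb : b < i),
        ee i hi1 (Sum.inl ⟨a, ha⟩) ≠ ee i hi1 (Sum.inl ⟨b, hb⟩) := by
      intro a b hab _ _ ha hb h
      have := Sum.inl_injective ((ee i hi1).injective h)
      simp only [Fin.mk.injEq] at this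
      exact hab this
    have hlr : ∀ j j' : Fin i, ee i hi1 (Sum.inl j) ≠ ee i hi1 (Sum.inr j') := by
      intro j j' h
      have := (ee i hi1).injective h
      cases this
    have h0l : (⟨0, by omega⟩ : Fin (2 * i - 1 + 1)) ≠ Fin.last _ := by
      intro h
      have := congrArg Fin.val h
      simp only [Fin.val_last] at this
      omega
    have h1l : (⟨1, by omega⟩ : Fin (2 * i - 1 + 1)) ≠ Fin.last _ := by
      intro h
      have := congrArg Fin.val h
      simp only [Fin.val_last] at this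
      omega
    have h01 : (⟨0, by omega⟩ : Fin (2 * i - 1 + 1)) ≠ ⟨1, by omega⟩ := by
      intro h
      have := congrArg Fin.val h
      simp at this
    -- class A
    obtain ⟨τA, hA1, hA2, -⟩ := ext3 (hlr ⟨0, by omega⟩ ⟨0, by omega⟩)
      (hz 0 1 (by omega) (by omega) (by omega) (by omega) (by omega))
      (hlr ⟨1, by omega⟩ ⟨0, by omega⟩).symm h0l.symm h1l.symm h01
    have hA : aA hi1 τA = 1 ∧ bB hi1 τA = 0 := by
      have h1 : cA (fun j : Fin i => τA (ee i hi1 (Sum.inl j))) := by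
        refine ⟨⟨_, hA1⟩, fun j hj => ?_⟩
        have h2 : τA (ee i hi1 (Sum.inl j)) = τA (ee i hi1 (Sum.inr ⟨0, by omega⟩)) := by
          rw [hA2]; exact Fin.ext hj
        exact hlr _ _ (τA.injective h2)
      have h2 : wA (fun j : Fin i => τA (ee i hi1 (Sum.inl j))) = 1 := if_pos h1
      have h3 := ab_le hi1 τA
      unfold aA bB at *
      omega
    -- class B
    obtain ⟨τB, hB1, hB2, hB3⟩ := ext3
      (hz 0 1 (by omega) (by omega) (by omega) (by omega) (by omega))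
      (hlr ⟨0, by omega⟩ ⟨0, by omega⟩) (hlr ⟨1, by omega⟩ ⟨0, by omega⟩) h0l h01 h1l.symm
    have hB : 1 ≤ bB hi1 τB := by
      have h1 : cB (fun j : Fin i => τB (ee i hi1 (Sum.inl j))) := by
        refine ⟨⟨_, hB2⟩, ⟨⟨0, by omega⟩, by simp only [hB1]⟩, fun j hj => ?_⟩
        have h2 : τB (ee i hi1 (Sum.inl j)) = τB (ee i hi1 (Sum.inr ⟨0, by omega⟩)) := by
          rw [hB3]; exact Fin.ext hj
        exact hlr _ _ (τB.injective h2)
      have h2 : wB (fun j : Fin i => τB (ee i hi1 (Sum.inl j))) = 1 := if_pos h1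
      unfold bB
      omega
    -- class C
    obtain ⟨τC, hC1, hC2, hC3⟩ := ext3
      (hz 0 1 (by omega) (by omega) (by omega) (by omega) (by omega))
      (hz 0 2 (by omega) (by omega) (by omega) (by omega) (by omega))
      (hz 1 2 (by omega) (by omega) (by omega) (by omega) (by omega)) h01 h0l h1l
    have hC : aA hi1 τC = 0 ∧ bB hi1 τC = 0 := by
      have h1 : ¬ cA (fun j : Fin i => τC (ee i hi1 (Sum.inl j))) := fun h =>
        h.2 ⟨0, by omega⟩ (by simp only [hC1])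
      have h2 : ¬ cB (fun j : Fin i => τC (ee i hi1 (Sum.inl j))) := fun h =>
        h.2.2 ⟨1, by omega⟩ (by simp only [hC2])
      have h3 : Fin.last _ ∉ Set.range fun j : Fin i => τC (ee i hi1 (Sum.inr j)) := by
        rintro ⟨j', hj'⟩
        exact hlr _ _ (τC.injective (hC3.trans hj'.symm))
      have h4 := w_zero _ h3
      have h5 : wA (fun j : Fin i => τC (ee i hi1 (Sum.inl j))) = 0 := if_neg h1
      have h6 : wB (fun j : Fin i => τC (ee i hi1 (Sum.inl j))) = 0 := if_neg h2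
      unfold aA bB
      omega
    have hn2 : 1 ≤ n2 :=
      hB.trans (Finset.single_le_sum (f := fun τ => bB hi1 τ) (fun _ _ => Nat.zero_le _)
        (Finset.mem_univ τB))
    have hδM : ∀ τ, δ τ ≤ 2 * La := by
      intro τ
      have h1 := ab_le hi1 τ
      simp only [δ]
      have h2 : La * aA hi1 τ + (La - 1) * bB hi1 τ ≤ La * (aA hi1 τ + bB hi1 τ) := by
        rw [mul_add]
        exact Nat.add_le_add_left (Nat.mul_le_mul_right _ (Nat.sub_le _ _)) _
      have h3 : La * (aA hi1 τ + bB hi1 τ) ≤ La * 1 := Nat.mul_le_mul_left _ h1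
      omega
    have hsum : (∑ τ, δ τ) = 2 * (La * n1 + (La - 1) * n2) := by
      simp only [δ, n1, n2]
      rw [← Finset.mul_sum, Finset.sum_add_distrib, Finset.mul_sum, Finset.mul_sum]
    have hPD : ∀ rk : Fin h × Fin h, PD (Gf (fun τ => yp hi1 La τ) (al rk.1 rk.2) rk.1 rk.2)
        (al rk.1 rk.2 * (2 * La) + (rk.1 : ℕ) * (∑ τ, δ τ) + (1 + (rk.2 : ℕ)) * ∑ τ, δ τ) := by
      intro rk
      refine Gf_PD _ δ (2 * La) (fun τ => yp_PD (by omega) La hLa τ) hδM ⟨τA, ?_⟩ ⟨τC, ?_⟩ _ _ _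
      · simp only [δ]
        rw [hA.1, hA.2]
        omega
      · simp only [δ]
        rw [hC.1, hC.2]
        omega
    refine li_of_deg _ (fun t => qc La i (n + 1) t) _ _ hPD ?_ ?_
    · rintro ⟨r, k⟩ ⟨r', k'⟩ heq
      simp only at heq
      rw [hsum] at heq
      have e1 := hal r k
      have e2 := hal r' k'
      have hz1 : ((al r k : ℕ) : ℤ) + (r : ℕ) * ((N0 : ℤ) - 1) + (1 + (k : ℕ)) * (N0 : ℤ) = c := by
        have := congrArg (Nat.cast : ℕ → ℤ) e1
        push_cast [Nat.cast_sub hN0pos] at this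
        linarith
      have hz2 : ((al r' k' : ℕ) : ℤ) + (r' : ℕ) * ((N0 : ℤ) - 1) + (1 + (k' : ℕ)) * (N0 : ℤ) = c := by
        have := congrArg (Nat.cast : ℕ → ℤ) e2
        push_cast [Nat.cast_sub hN0pos] at this
        linarith
      have hz3 := congrArg (Nat.cast : ℕ → ℤ) heq
      push_cast [Nat.cast_sub (by omega : 1 ≤ La)] at hz3
      have hfin : ((r : ℕ) : ℤ) - (r' : ℕ) = 0 ∧ ((k : ℕ) : ℤ) - (k' : ℕ) = 0 := by
        refine arith (La := (La : ℤ)) (W := (n1 : ℤ) + n2 - N0) (n2 := (n2 : ℤ)) (h := (h : ℤ))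
          (by exact_mod_cast hn2) ?_ ?_ ?_ ?_
        · simp only [La]
          push_cast
          omega
        · rw [abs_lt]
          have := r.2
          have := r'.2
          constructor <;> omega
        · rw [abs_lt]
          have := k.2
          have := k'.2
          constructor <;> omega
        · have ha1 : ((al r k : ℕ) : ℤ) = c - (r : ℕ) * ((N0 : ℤ) - 1) - (1 + (k : ℕ)) * (N0 : ℤ) := by
            linarith
          have ha2 : ((al r' k' : ℕ) : ℤ) = c - (r' : ℕ) * ((N0 : ℤ) - 1) -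
            (1 + (k' : ℕ)) * (N0 : ℤ) := by linarith
          rw [ha1, ha2] at hz3
          linarith
      rw [Prod.mk.injEq]
      exact ⟨Fin.ext (by omega), Fin.ext (by omega)⟩
    · rintro ⟨r, k⟩ t
      have h2 := map_Gf (Pi.evalRingHom (fun _ => ℂ) (Fin.snoc (α := fun _ => Fin (n + 1) → ℂ)
        (PP i (n + 1)) (qc La i (n + 1) t))) (YF hi1 him) (al r k) r k
      simp only [Pi.evalRingHom_apply] at h2
      simp only
      rw [h2, ← Polynomial.coe_eval₂RingHom, map_Gf]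
      congr 1
      funext τ
      exact yp_eval hi1 him La τ t

end Vale.Agent.P181.FR.H572
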