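import Mathlib.LinearAlgebra.Vandermonde
import Mathlib.Algebra.Polynomial.Eval.Defs
import Mathlib.Algebra.Polynomial.BigOperators
import Mathlib.Algebra.Polynomial.Roots
import Mathlib.Data.Complex.Basic
import Mathlib.Data.Real.Basic
import Mathlib.Tactic

set_option autoImplicit false

namespace Vale.Agent.P181.FR.H572

open Polynomial

/-- Positive leading coefficient, degree `d`. -/
def PD (p : ℝ[X]) (d : ℕ) : Prop := p.natDegree = d ∧ 0 < p.leadingCoeff

lemma PD.ne_zero {p : ℝ[X]} {d : ℕ} (h : PD p d) : p ≠ 0 := by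
  intro h0
  have := h.2
  rw [h0] at this
  simp at this

lemma PD.coeff {p : ℝ[X]} {d : ℕ} (h : PD p d) : 0 < p.coeff d := by
  have := h.2
  rwa [leadingCoeff, h.1] at this

lemma PD_of {p : ℝ[X]} {d : ℕ} (h1 : p.natDegree ≤ d) (h2 : 0 < p.coeff d) : PD p d := by
  have h3 : p.natDegree = d := le_antisymm h1 (le_natDegree_of_ne_zero h2.ne')
  exact ⟨h3, by rw [leadingCoeff, h3]; exact h2⟩

lemma PD.one : PD 1 0 := ⟨natDegree_one, by simp⟩

lemma PD.mul {p q : ℝ[X]} {d e : ℕ} (h : PD p d) (h' : PD q e) : PD (p * q) (d + e) := by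
  refine ⟨?_, ?_⟩
  · rw [natDegree_mul h.ne_zero h'.ne_zero, h.1, h'.1]
  · rw [leadingCoeff_mul]
    exact mul_pos h.2 h'.2

lemma PD.pow {p : ℝ[X]} {d : ℕ} (h : PD p d) (n : ℕ) : PD (p ^ n) (n * d) := by
  induction n with
  | zero => rw [pow_zero, zero_mul]; exact PD.one
  | succ n ih => rw [pow_succ, Nat.succ_mul]; exact ih.mul h

lemma PD.prod {ι : Type*} (s : Finset ι) {f : ι → ℝ[X]} {d : ι → ℕ} (h : ∀ i ∈ s, PD (f i) (d i)) :
    PD (∏ i ∈ s, f i) (∑ i ∈ s, d i) := by
  classical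
  induction s using Finset.induction_on with
  | empty => rw [Finset.prod_empty, Finset.sum_empty]; exact PD.one
  | insert a s ha ih =>
    rw [Finset.prod_insert ha, Finset.sum_insert ha]
    exact (h a (Finset.mem_insert_self a s)).mul
      (ih fun i hi => h i (Finset.mem_insert_of_mem hi))

lemma PD.coeff_nonneg {p : ℝ[X]} {d M : ℕ} (h : PD p d) (hd : d ≤ M) : 0 ≤ p.coeff M := by
  rcases hd.eq_or_lt with h1 | h1
  · rw [← h1]; exact h.coeff.le
  · rw [coeff_eq_zero_of_natDegree_lt (by rw [h.1]; exact h1)]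

lemma PD.sum {ι : Type*} (s : Finset ι) {f : ι → ℝ[X]} {d : ι → ℕ} {M : ℕ}
    (h : ∀ i ∈ s, PD (f i) (d i)) (hM : ∀ i ∈ s, d i ≤ M) (he : ∃ i ∈ s, d i = M) :
    PD (∑ i ∈ s, f i) M := by
  refine PD_of ?_ ?_
  · exact natDegree_sum_le_of_forall_le s f fun i hi => by rw [(h i hi).1]; exact hM i hi
  · rw [finsetSum_coeff]
    obtain ⟨i, hi, hd⟩ := he
    refine Finset.sum_pos' (fun j hj => (h j hj).coeff_nonneg (hM j hj)) ⟨i, hi, ?_⟩
    rw [← hd]
    exact (h i hi).coeff

lemma PD.sq_of {p : ℝ[X]} {d : ℕ} (h0 : p ≠ 0) (hd : p.natDegree = d) : PD (p ^ 2) (2 * d) := by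
  refine ⟨by rw [natDegree_pow, hd], ?_⟩
  rw [leadingCoeff_pow]
  exact sq_pos_of_ne_zero (leadingCoeff_ne_zero.2 h0)

/-- Functions which become polynomials of different degrees on a curve are independent. -/
lemma li_of_deg {ι X : Type*} [Finite ι] (F : ι → X → ℂ) (q : ℂ → X) (g : ι → ℝ[X]) (d : ι → ℕ)
    (hg : ∀ i, PD (g i) (d i)) (hd : Function.Injective d)
    (hF : ∀ i t, F i (q t) = (g i).eval₂ (algebraMap ℝ ℂ) t) : LinearIndependent ℂ F := by
  classical
  have := Fintype.ofFinite ι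
  rw [Fintype.linearIndependent_iff]
  intro a ha
  by_contra hne
  push Not at hne
  obtain ⟨i0, hi0⟩ := hne
  have hS : (Finset.univ.filter fun i => a i ≠ 0).Nonempty := ⟨i0, by simp [hi0]⟩
  obtain ⟨j, hj, hmax⟩ := Finset.exists_max_image _ d hS
  rw [Finset.mem_filter] at hj
  have hpoly : ∑ i, C (a i) * (g i).map (algebraMap ℝ ℂ) = 0 := by
    apply Polynomial.funext
    intro t
    have h1 := congrFun ha (q t)
    simp only [Finset.sum_apply, Pi.smul_apply, smul_eq_mul, Pi.zero_apply] at h1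
    rw [eval_finsetSum, eval_zero, ← h1]
    refine Finset.sum_congr rfl fun i _ => ?_
    rw [eval_mul, eval_C, eval_map, hF i t]
  have hc := congrArg (fun p : ℂ[X] => p.coeff (d j)) hpoly
  simp only [finsetSum_coeff, coeff_C_mul, coeff_map, coeff_zero] at hc
  rw [Finset.sum_eq_single j] at hc
  · rcases mul_eq_zero.1 hc with h | h
    · exact hj.2 h
    · have h2 := (hg j).coeff
      have h3 : (g j).coeff (d j) = 0 := by
        have : (algebraMap ℝ ℂ) ((g j).coeff (d j)) = (algebraMap ℝ ℂ) 0 := by rw [h, map_zero]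
        exact (algebraMap ℝ ℂ).injective this
      rw [h3] at h2
      exact lt_irrefl _ h2
  · intro i _ hij
    by_cases hai : a i = 0
    · rw [hai, zero_mul]
    · have h1 := hmax i (by simp [hai])
      have h2 : d i < d j := lt_of_le_of_ne h1 fun h => hij (hd h)
      rw [coeff_eq_zero_of_natDegree_lt (by rw [(hg i).1]; exact h2), map_zero, mul_zero]
  · intro h; exact absurd (Finset.mem_univ _) h

end Vale.Agent.P181.FR.H572
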