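import Vale.Agent.P181.R2.H959.WDefs
import Vale.Agent.P181.R2.H277.FR4
import Vale.Agent.P181.R2.H572.PD

set_option autoImplicit false
open scoped TensorProduct
namespace Vale.Agent.P181.FR.H572
open Vale.Agent.P181 Vale.Agent.P181.H280

section ring
variable {R : Type*} [CommRing R] {ι : Type*} [Fintype ι] [DecidableEq ι]

def F1 (y : ι → R) : R := ∑ τ, y τ
def F2 (y : ι → R) : R := ∑ τ, ∏ τ' ∈ Finset.univ.erase τ, y τ'
def F3 (y : ι → R) : R := ∏ τ, y τ
def Gf (y : ι → R) (al r k : ℕ) : R := F1 y ^ al * F2 y ^ r * F3 y ^ (1 + k)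

lemma map_Gf {S : Type*} [CommRing S] (φ : R →+* S) (y : ι → R) (al r k : ℕ) :
    φ (Gf y al r k) = Gf (fun τ => φ (y τ)) al r k := by
  unfold Gf F1 F2 F3
  simp only [map_mul, map_pow, map_sum, map_prod]

lemma Gf_equiv (y : ι → R) (σ : Equiv.Perm ι) (al r k : ℕ) :
    Gf (fun τ => y (σ τ)) al r k = Gf y al r k := by
  unfold Gf
  congr 1
  · congr 1
    · congr 1
      exact Equiv.sum_comp σ y
    · congr 1
      unfold F2
      rw [← Equiv.sum_comp σ (fun τ => ∏ τ' ∈ Finset.univ.erase τ, y τ')]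
      refine Finset.sum_congr rfl fun τ _ => ?_
      refine Finset.prod_equiv σ ?_ ?_
      · intro x
        simp only [Finset.mem_erase, Finset.mem_univ, and_true, ne_eq, EmbeddingLike.apply_eq_iff_eq]
      · intro x _
        rfl
  · congr 1
    exact Equiv.prod_comp σ y

lemma Gf_zero (y : ι → R) (al r k : ℕ) (τ : ι) (h : y τ = 0) : Gf y al r k = 0 := by
  unfold Gf
  have h3 : F3 y = 0 := Finset.prod_eq_zero (Finset.mem_univ τ) h
  rw [h3, zero_pow (by omega), mul_zero]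

end ring

section poly
open Polynomial
variable {ι : Type*} [Fintype ι] [DecidableEq ι]

lemma Gf_PD (y : ι → ℝ[X]) (δ : ι → ℕ) (M : ℕ) (h : ∀ τ, PD (y τ) (δ τ)) (hM : ∀ τ, δ τ ≤ M)
    (h1 : ∃ τ, δ τ = M) (h0 : ∃ τ, δ τ = 0) (al r k : ℕ) :
    PD (Gf y al r k) (al * M + r * (∑ τ, δ τ) + (1 + k) * ∑ τ, δ τ) := by
  unfold Gf
  refine PD.mul (PD.mul (PD.pow ?_ al) (PD.pow ?_ r)) (PD.pow ?_ (1 + k))
  · obtain ⟨τ, hτ⟩ := h1
    exact PD.sum _ (fun i _ => h i) (fun i _ => hM i) ⟨τ, Finset.mem_univ _, hτ⟩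
  · obtain ⟨τ, hτ⟩ := h0
    refine PD.sum (d := fun τ => ∑ τ' ∈ Finset.univ.erase τ, δ τ') _
      (fun i _ => PD.prod _ fun j _ => h j) (fun i _ => ?_) ⟨τ, Finset.mem_univ _, ?_⟩
    · exact Finset.sum_le_sum_of_subset (Finset.erase_subset _ _)
    · have := Finset.sum_erase_add (Finset.univ : Finset ι) δ (Finset.mem_univ τ)
      rw [hτ, add_zero] at this
      exact this
  · exact PD.prod _ fun i _ => h i

end poly

/-! Membership and weights. -/

lemma HWF.mul {B m : ℕ} {nu nu' : Fin m → ℕ} {G H : (Fin B → Fin m → ℂ) → ℂ}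
    (hG : HWF B m nu G) (hH : HWF B m nu' H) : HWF B m (nu + nu') (G * H) := by
  intro g hg p
  rw [Pi.mul_apply, Pi.mul_apply, hG g hg p, hH g hg p]
  simp only [Pi.add_apply, pow_add, Finset.prod_mul_distrib]
  ring

lemma HWF.one {B m : ℕ} : HWF B m 0 (1 : (Fin B → Fin m → ℂ) → ℂ) := by
  intro g hg p
  simp

lemma HWF.pow {B m : ℕ} {nu : Fin m → ℕ} {G : (Fin B → Fin m → ℂ) → ℂ}
    (hG : HWF B m nu G) (n : ℕ) : HWF B m (n • nu) (G ^ n) := by
  induction n with
  | zero => rw [pow_zero, zero_smul]; exact HWF.one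
  | succ n ih => rw [pow_succ, add_smul, one_smul]; exact HWF.mul ih hG

lemma HWF.prod {B m : ℕ} {nu : Fin m → ℕ} {ι : Type*} (s : Finset ι)
    {G : ι → (Fin B → Fin m → ℂ) → ℂ} (hG : ∀ i ∈ s, HWF B m nu (G i)) :
    HWF B m (s.card • nu) (∏ i ∈ s, G i) := by
  classical
  induction s using Finset.induction_on with
  | empty => rw [Finset.prod_empty, Finset.card_empty, zero_smul]; exact HWF.one
  | insert a s ha ih =>
    rw [Finset.prod_insert ha, Finset.card_insert_of_notMem ha, add_smul, one_smul, add_comm]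
    exact HWF.mul (hG a (Finset.mem_insert_self a s))
      (ih fun i hi => hG i (Finset.mem_insert_of_mem hi))

lemma HWF.sum {B m : ℕ} {nu : Fin m → ℕ} {ι : Type*} (s : Finset ι)
    {G : ι → (Fin B → Fin m → ℂ) → ℂ} (hG : ∀ i ∈ s, HWF B m nu (G i)) :
    HWF B m nu (∑ i ∈ s, G i) := by
  intro g hg p
  rw [Finset.sum_apply, Finset.sum_apply, Finset.mul_sum]
  exact Finset.sum_congr rfl fun i hi => hG i hi g hg p

lemma MP_prod {B m a : ℕ} {ι : Type*} (s : Finset ι)
    {G : ι → (Fin B → Fin m → ℂ) → ℂ} (hG : ∀ i ∈ s, G i ∈ MP B m a) :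
    (∏ i ∈ s, G i) ∈ MP B m (s.card * a) := by
  classical
  induction s using Finset.induction_on with
  | empty => rw [Finset.prod_empty, Finset.card_empty, zero_mul]; exact H277.MP_one B m
  | insert a' s ha ih =>
    rw [Finset.prod_insert ha, Finset.card_insert_of_notMem ha, add_mul, one_mul, add_comm]
    exact MP_mul (hG a' (Finset.mem_insert_self a' s))
      (ih fun i hi => hG i (Finset.mem_insert_of_mem hi))

lemma Gf_MP {B m : ℕ} {ι : Type*} [Fintype ι] [DecidableEq ι] (y : ι → (Fin B → Fin m → ℂ) → ℂ)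
    (h : ∀ τ, y τ ∈ MP B m 2) (al r k : ℕ) :
    Gf y al r k ∈ MP B m
      (al * 2 + r * ((Fintype.card ι - 1) * 2) + (1 + k) * (Fintype.card ι * 2)) := by
  unfold Gf
  refine MP_mul (MP_mul (H277.MP_pow ?_ al) (H277.MP_pow ?_ r)) (H277.MP_pow ?_ (1 + k))
  · exact Submodule.sum_mem _ fun τ _ => h τ
  · refine Submodule.sum_mem _ fun τ _ => ?_
    have := MP_prod (Finset.univ.erase τ) (G := y) (a := 2) (fun i _ => h i)
    rwa [Finset.card_erase_of_mem (Finset.mem_univ τ), Finset.card_univ] at this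
  · have := MP_prod (Finset.univ) (G := y) (a := 2) (fun i _ => h i)
    rwa [Finset.card_univ] at this

lemma Gf_HWF {B m : ℕ} {ι : Type*} [Fintype ι] [DecidableEq ι] (y : ι → (Fin B → Fin m → ℂ) → ℂ)
    {nu : Fin m → ℕ} (h : ∀ τ, HWF B m nu (y τ)) (al r k : ℕ) :
    HWF B m ((al + r * (Fintype.card ι - 1) + (1 + k) * Fintype.card ι) • nu) (Gf y al r k) := by
  have h1 : HWF B m (al • nu + r • ((Fintype.card ι - 1) • nu) +
      (1 + k) • (Fintype.card ι • nu)) (Gf y al r k) := by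
    unfold Gf
    refine HWF.mul (HWF.mul (HWF.pow ?_ al) (HWF.pow ?_ r)) (HWF.pow ?_ (1 + k))
    · exact HWF.sum _ fun τ _ => h τ
    · refine HWF.sum _ fun τ _ => ?_
      have := HWF.prod (Finset.univ.erase τ) (G := y) (fun i _ => h i)
      rwa [Finset.card_erase_of_mem (Finset.mem_univ τ), Finset.card_univ] at this
    · have := HWF.prod (Finset.univ) (G := y) (fun i _ => h i)
      rwa [Finset.card_univ] at this
  have h2 : (al + r * (Fintype.card ι - 1) + (1 + k) * Fintype.card ι) • nu =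
      al • nu + r • ((Fintype.card ι - 1) • nu) + (1 + k) • (Fintype.card ι • nu) := by
    rw [add_smul, add_smul, mul_smul, mul_smul]
  rw [h2]
  exact h1

end Vale.Agent.P181.FR.H572
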