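import Mathlib

/-!
# P181 (ThreeRowTail), row R1: the `sl_2` lemma

A homogeneous polynomial of degree `t` in `b` variables, of degree at most `d` in every variable and
invariant under the translations `c ↦ c + e (1, …, 1)`, vanishes if `d b < 2 t`.

Proof: `x ^ t ∏ (1 + x c_j) ^ d G (c / (1 + x c)) = (-1) ^ t ∏ (1 + x c_j) ^ d G (1 / (1 + x c))`, since
`c / (1 + x c) = 1 / x - (1 / x) / (1 + x c)`; the right side has degree at most `d b - t < t` in `x`.
-/

set_option autoImplicit false

namespace Vale.Agent.P181.R2.H572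

open MvPolynomial Finset

variable {b d t : ℕ}

/-- the exponents of a homogeneous polynomial -/
lemma sum_exp {G : MvPolynomial (Fin b) ℂ} (hh : G.IsHomogeneous t) {m : Fin b →₀ ℕ}
    (hm : m ∈ G.support) : ∑ j, m j = t := by
  have h1 := hh (MvPolynomial.mem_support_iff.1 hm)
  rw [← h1, Finsupp.weight_apply, Finsupp.sum_fintype]
  · simp
  · intro i; simp

lemma exp_le {G : MvPolynomial (Fin b) ℂ} (hd : ∀ j, G.degreeOf j ≤ d) {m : Fin b →₀ ℕ}
    (hm : m ∈ G.support) (j : Fin b) : m j ≤ d :=
  (MvPolynomial.monomial_le_degreeOf j hm).trans (hd j)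

/-- scaling of the variables -/
lemma eval_scale {G : MvPolynomial (Fin b) ℂ} (hh : G.IsHomogeneous t) (s : ℂ) (y : Fin b → ℂ) :
    eval (fun j => s * y j) G = s ^ t * eval y G := by
  rw [MvPolynomial.eval_eq', MvPolynomial.eval_eq', Finset.mul_sum]
  refine Finset.sum_congr rfl fun m hm => ?_
  simp only [mul_pow]
  rw [Finset.prod_mul_distrib, Finset.prod_pow_eq_pow_sum, sum_exp hh hm]
  ring

/-- clearing denominators -/
lemma eval_clear {G : MvPolynomial (Fin b) ℂ} (hd : ∀ j, G.degreeOf j ≤ d) (n z : Fin b → ℂ)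
    (hz : ∀ j, z j ≠ 0) :
    (∏ j, z j ^ d) * eval (fun j => n j / z j) G =
      ∑ m ∈ G.support, coeff m G * ((∏ j, n j ^ m j) * ∏ j, z j ^ (d - m j)) := by
  rw [MvPolynomial.eval_eq', Finset.mul_sum]
  refine Finset.sum_congr rfl fun m hm => ?_
  have h1 : ∀ j, z j ^ d * (n j / z j) ^ m j = n j ^ m j * z j ^ (d - m j) := by
    intro j
    have h2 : z j ^ d = z j ^ m j * z j ^ (d - m j) := by
      rw [← pow_add]; congr 1; have := exp_le hd hm j; omega
    rw [h2, div_pow]
    have h3 : z j ^ m j ≠ 0 := pow_ne_zero _ (hz j)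
    field_simp
  calc (∏ j, z j ^ d) * (coeff m G * ∏ j, (n j / z j) ^ m j)
      = coeff m G * ∏ j, (z j ^ d * (n j / z j) ^ m j) := by
        rw [Finset.prod_mul_distrib]; ring
    _ = _ := by
        rw [Finset.prod_congr rfl fun j _ => h1 j, Finset.prod_mul_distrib]

/-- the polynomial of the left side -/
noncomputable def FF (d : ℕ) (G : MvPolynomial (Fin b) ℂ) (n c : Fin b → ℂ) : Polynomial ℂ :=
  ∑ m ∈ G.support, Polynomial.C (coeff m G * ∏ j, n j ^ m j) *
    ∏ j, (1 + Polynomial.C (c j) * Polynomial.X) ^ (d - m j)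

lemma eval_FF (G : MvPolynomial (Fin b) ℂ) (n c : Fin b → ℂ) (x : ℂ) :
    (FF d G n c).eval x =
      ∑ m ∈ G.support, coeff m G * ((∏ j, n j ^ m j) * ∏ j, (1 + c j * x) ^ (d - m j)) := by
  unfold FF
  rw [Polynomial.eval_finsetSum]
  refine Finset.sum_congr rfl fun m _ => ?_
  rw [Polynomial.eval_mul, Polynomial.eval_C, Polynomial.eval_prod]
  simp only [Polynomial.eval_pow, Polynomial.eval_add, Polynomial.eval_one, Polynomial.eval_mul,
    Polynomial.eval_C, Polynomial.eval_X]
  ring

lemma natDegree_FF {G : MvPolynomial (Fin b) ℂ} (hd : ∀ j, G.degreeOf j ≤ d)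
    (hh : G.IsHomogeneous t) (n c : Fin b → ℂ) : (FF d G n c).natDegree ≤ d * b - t := by
  unfold FF
  refine Polynomial.natDegree_sum_le_of_forall_le _ _ fun m hm => ?_
  refine (Polynomial.natDegree_C_mul_le _ _).trans ((Polynomial.natDegree_prod_le _ _).trans ?_)
  have h1 : ∀ j ∈ (univ : Finset (Fin b)),
      ((1 + Polynomial.C (c j) * Polynomial.X : Polynomial ℂ) ^ (d - m j)).natDegree ≤ d - m j := by
    intro j _
    refine Polynomial.natDegree_pow_le.trans ?_
    have h2 : (1 + Polynomial.C (c j) * Polynomial.X : Polynomial ℂ).natDegree ≤ 1 := by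
      refine (Polynomial.natDegree_add_le _ _).trans ?_
      rw [Polynomial.natDegree_one]
      exact max_le (by norm_num) ((Polynomial.natDegree_C_mul_le _ _).trans Polynomial.natDegree_X_le)
    exact (Nat.mul_le_mul_left _ h2).trans (by omega)
  refine (Finset.sum_le_sum h1).trans ?_
  have h3 : ∑ j, (d - m j) + ∑ j, m j = d * b := by
    rw [← Finset.sum_add_distrib]
    have : ∀ j ∈ (univ : Finset (Fin b)), d - m j + m j = d := fun j _ => by
      have := exp_le hd hm j; omega
    rw [Finset.sum_congr rfl this]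
    simp [mul_comm]
  rw [sum_exp hh hm] at h3
  omega

/-- **R1.** -/
theorem sl2_lemma (G : MvPolynomial (Fin b) ℂ) (hd : ∀ j, degreeOf j G ≤ d)
    (hh : G.IsHomogeneous t)
    (htr : ∀ (e : ℂ) (c : Fin b → ℂ), eval (fun j => c j + e) G = eval c G)
    (h : d * b < 2 * t) : G = 0 := by
  refine MvPolynomial.funext fun c => ?_
  rw [map_zero]
  have key : Polynomial.X ^ t * FF d G c c = Polynomial.C ((-1) ^ t) * FF d G (fun _ => 1) c := by
    refine Polynomial.eq_of_infinite_eval_eq _ _ ?_
    have hfin : ({0} ∪ Set.range fun j => -(c j)⁻¹ : Set ℂ).Finite :=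
      (Set.finite_singleton _).union (Set.finite_range _)
    refine hfin.infinite_compl.mono fun x hx => ?_
    have hx0 : x ≠ 0 := fun e => hx (Or.inl e)
    have hz : ∀ j, 1 + c j * x ≠ 0 := by
      intro j e
      apply hx
      refine Or.inr ⟨j, ?_⟩
      have hc : c j ≠ 0 := by
        intro hc; rw [hc, zero_mul, add_zero] at e; exact one_ne_zero e
      show -(c j)⁻¹ = x
      field_simp
      linear_combination -e
    show (Polynomial.X ^ t * FF d G c c).eval x =
      (Polynomial.C ((-1) ^ t) * FF d G (fun _ => 1) c).eval x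
    rw [Polynomial.eval_mul, Polynomial.eval_mul, Polynomial.eval_pow, Polynomial.eval_X,
      Polynomial.eval_C, eval_FF, eval_FF, ← eval_clear hd c (fun j => 1 + c j * x) hz,
      ← eval_clear hd (fun _ => 1) (fun j => 1 + c j * x) hz]
    have e1 : (fun j => c j / (1 + c j * x)) =
        fun j => (-x⁻¹) * (1 / (1 + c j * x)) + x⁻¹ := by
      funext j
      have := hz j
      field_simp
      ring
    rw [e1, htr x⁻¹ (fun j => (-x⁻¹) * (1 / (1 + c j * x))), eval_scale hh]
    have e2 : x ^ t * (-x⁻¹) ^ t = (-1) ^ t := by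
      rw [← mul_pow]; congr 1; field_simp
    linear_combination (∏ j, (1 + c j * x) ^ d) * eval (fun j => 1 / (1 + c j * x)) G * e2
  have h0 : FF d G c c = 0 := by
    by_contra hne
    have h1 : (Polynomial.X ^ t * FF d G c c).natDegree = t + (FF d G c c).natDegree := by
      rw [Polynomial.natDegree_mul (pow_ne_zero _ Polynomial.X_ne_zero) hne,
        Polynomial.natDegree_X_pow]
    have h2 : (Polynomial.C ((-1) ^ t) * FF d G (fun _ => 1) c).natDegree ≤ d * b - t :=
      (Polynomial.natDegree_C_mul_le _ _).trans (natDegree_FF hd hh _ _)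
    rw [← key, h1] at h2
    omega
  have h3 := eval_FF (d := d) G c c 0
  rw [h0, Polynomial.eval_zero] at h3
  rw [MvPolynomial.eval_eq']
  simpa using h3.symm

end Vale.Agent.P181.R2.H572
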